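import Mathlib

set_option linter.all false

/-! P299, package A-PENCIL, abstract part: multi-affine functions of slow growth have vanishing top
coefficient; two difference relations in commuting directions. -/

namespace Vale.Agent.P299.H98

/-- Iterated difference `∑_{S} (-1)^|S| g (1_S)`. -/
def alt : ∀ (r : ℕ), ((Fin r → ℕ) → ℝ) → ℝ
  | 0, g => g 0
  | r + 1, g => alt r fun x => g (Fin.cons 0 x) - g (Fin.cons 1 x)

/-- Affine in every variable. -/
def MAff {r : ℕ} (g : (Fin r → ℕ) → ℝ) : Prop :=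
  ∀ (i : Fin r) (x : Fin r → ℕ) (t : ℕ),
    g (Function.update x i t) - 2 * g (Function.update x i (t + 1)) +
      g (Function.update x i (t + 2)) = 0

theorem affine_nat {f : ℕ → ℝ} (h : ∀ t, f t - 2 * f (t + 1) + f (t + 2) = 0) (t : ℕ) :
    f t = f 0 + t * (f 1 - f 0) := by
  induction t using Nat.strong_induction_on with
  | _ t ih =>
    match t with
    | 0 => simp
    | 1 => simp
    | t + 2 =>
      have h1 := ih t (by omega)
      have h2 := ih (t + 1) (by omega)
      have h3 := h t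
      push_cast at *
      linarith

theorem MAff.cons {r : ℕ} {g : (Fin (r + 1) → ℕ) → ℝ} (hg : MAff g) (x : Fin r → ℕ) (t : ℕ) :
    g (Fin.cons t x) = g (Fin.cons 0 x) + t * (g (Fin.cons 1 x) - g (Fin.cons 0 x)) := by
  refine affine_nat (f := fun t => g (Fin.cons t x)) (fun t => ?_) t
  have := hg 0 (Fin.cons 0 x) t
  simpa [Fin.update_cons_zero] using this

theorem MAff.diff {r : ℕ} {g : (Fin (r + 1) → ℕ) → ℝ} (hg : MAff g) :
    MAff fun x : Fin r → ℕ => g (Fin.cons 0 x) - g (Fin.cons 1 x) := by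
  intro i x t
  have h0 := hg i.succ (Fin.cons 0 x) t
  have h1 := hg i.succ (Fin.cons 1 x) t
  simp only [← Fin.cons_update] at h0 h1
  linarith

/-- A multi-affine function of `r + 1` variables with growth of order `r` has vanishing top
coefficient. -/
theorem alt_eq_zero {r : ℕ} {g : (Fin (r + 1) → ℕ) → ℝ} (hg : MAff g) {C : ℝ}
    (hC : ∀ x, |g x| ≤ C * (1 + ∑ i, (x i : ℝ)) ^ r) : alt (r + 1) g = 0 := by
  induction r generalizing C with
  | zero =>
    simp only [pow_zero, mul_one] at hC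
    show g (Fin.cons 0 0) - g (Fin.cons 1 0) = 0
    by_contra hne
    have h1 : ∀ t : ℕ, (t : ℝ) * |g (Fin.cons 0 0) - g (Fin.cons 1 0)| ≤ 2 * C := by
      intro t
      have h2 := hg.cons 0 t
      have h3 : (t : ℝ) * (g (Fin.cons 0 0) - g (Fin.cons 1 0)) =
          g (Fin.cons 0 0) - g (Fin.cons t 0) := by
        rw [h2]; ring
      have h4 : (t : ℝ) * |g (Fin.cons 0 0) - g (Fin.cons 1 0)| =
          |g (Fin.cons 0 0) - g (Fin.cons t 0)| := by
        rw [← h3, abs_mul, abs_of_nonneg (Nat.cast_nonneg (α := ℝ) t)]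
      rw [h4]
      calc _ ≤ |g (Fin.cons 0 0)| + |g (Fin.cons t 0)| := abs_sub _ _
        _ ≤ C + C := add_le_add (hC _) (hC _)
        _ = 2 * C := by ring
    obtain ⟨t, ht⟩ := exists_nat_gt (2 * C / |g (Fin.cons 0 0) - g (Fin.cons 1 0)|)
    have hpos : 0 < |g (Fin.cons 0 0) - g (Fin.cons 1 0)| := abs_pos.2 hne
    rw [div_lt_iff₀ hpos] at ht
    linarith [h1 t]
  | succ r ih =>
    show alt (r + 1) (fun x => g (Fin.cons 0 x) - g (Fin.cons 1 x)) = 0
    have hC0 : 0 ≤ C := by
      have := (abs_nonneg _).trans (hC 0)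
      simpa using this
    refine ih hg.diff (C := 2 * C * 2 ^ (r + 1)) fun x => ?_
    set s : ℝ := ∑ i, (x i : ℝ) with hs
    have hs0 : 0 ≤ s := Finset.sum_nonneg fun i _ => Nat.cast_nonneg _
    set t : ℕ := 1 + ∑ i, x i with ht
    have hts : (t : ℝ) = 1 + s := by rw [ht, hs]; push_cast; ring
    have h2 := hg.cons x t
    have h3 : (t : ℝ) * (g (Fin.cons 0 x) - g (Fin.cons 1 x)) =
        g (Fin.cons 0 x) - g (Fin.cons t x) := by
      rw [h2]; ring
    have h4 : (t : ℝ) * |g (Fin.cons 0 x) - g (Fin.cons 1 x)| =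
        |g (Fin.cons 0 x) - g (Fin.cons t x)| := by
      rw [← h3, abs_mul, abs_of_nonneg (Nat.cast_nonneg (α := ℝ) t)]
    have h5 : |g (Fin.cons 0 x)| ≤ C * (2 * (1 + s)) ^ (r + 1) := by
      refine (hC _).trans ?_
      rw [Fin.sum_univ_succ]
      simp only [Fin.cons_zero, Fin.cons_succ, Nat.cast_zero]
      gcongr
      linarith
    have h6 : |g (Fin.cons t x)| ≤ C * (2 * (1 + s)) ^ (r + 1) := by
      refine (hC _).trans ?_
      rw [Fin.sum_univ_succ]
      simp only [Fin.cons_zero, Fin.cons_succ]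
      rw [hts]
      gcongr
      linarith
    have h7 : (1 + s) * |g (Fin.cons 0 x) - g (Fin.cons 1 x)| ≤
        (1 + s) * (2 * C * 2 ^ (r + 1) * (1 + s) ^ r) := by
      rw [← hts, h4, hts]
      calc _ ≤ |g (Fin.cons 0 x)| + |g (Fin.cons t x)| := abs_sub _ _
        _ ≤ C * (2 * (1 + s)) ^ (r + 1) + C * (2 * (1 + s)) ^ (r + 1) := add_le_add h5 h6
        _ = _ := by rw [mul_pow, pow_succ (1 + s)]; ring
    exact le_of_mul_le_mul_left h7 (by positivity)

/-- The alternating sum of a function of the sum of the variables is an iterated difference. -/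
theorem alt_sum (r : ℕ) (f : ℕ → ℝ) (t : ℕ) :
    alt r (fun x => f (t + ∑ i, x i)) =
      ∑ k ∈ Finset.range (r + 1), (-1 : ℝ) ^ k * (r.choose k) * f (t + k) := by
  induction r generalizing f t with
  | zero => simp [alt]
  | succ r ih =>
    show alt r (fun x => f (t + ∑ i, (Fin.cons 0 x : Fin (r + 1) → ℕ) i) -
      f (t + ∑ i, (Fin.cons 1 x : Fin (r + 1) → ℕ) i)) = _
    have h1 : (fun x : Fin r → ℕ => f (t + ∑ i, (Fin.cons 0 x : Fin (r + 1) → ℕ) i) -
        f (t + ∑ i, (Fin.cons 1 x : Fin (r + 1) → ℕ) i)) =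
        fun x => (fun s => f s - f (s + 1)) (t + ∑ i, x i) := by
      funext x
      rw [Fin.sum_univ_succ, Fin.sum_univ_succ]
      simp only [Fin.cons_zero, Fin.cons_succ, zero_add]
      congr 2
      ring
    rw [h1, ih (fun s => f s - f (s + 1)) t, Finset.sum_range_succ' _ (r + 1)]
    have h2 : ∀ k ∈ Finset.range (r + 1), (-1 : ℝ) ^ (k + 1) * ((r + 1).choose (k + 1)) *
        f (t + (k + 1)) = (-1 : ℝ) ^ (k + 1) * (r.choose k) * f (t + (k + 1)) +
          (-1 : ℝ) ^ (k + 1) * (r.choose (k + 1)) * f (t + (k + 1)) := by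
      intro k _
      rw [Nat.choose_succ_succ]
      push_cast
      ring
    rw [Finset.sum_congr rfl h2, Finset.sum_add_distrib]
    have h3 : ∑ k ∈ Finset.range (r + 1), (-1 : ℝ) ^ (k + 1) * (r.choose (k + 1)) *
        f (t + (k + 1)) + (-1 : ℝ) ^ 0 * ((r + 1).choose 0) * f (t + 0) =
        ∑ k ∈ Finset.range (r + 1), (-1 : ℝ) ^ k * (r.choose k) * f (t + k) := by
      have h4 := Finset.sum_range_succ' (fun k => (-1 : ℝ) ^ k * (r.choose k) * f (t + k)) (r + 1)
      rw [Finset.sum_range_succ] at h4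
      simp only [Nat.choose_succ_self, Nat.cast_zero, mul_zero, zero_mul, add_zero,
        Nat.choose_zero_right] at h4 ⊢
      exact h4.symm
    rw [add_assoc, h3, ← Finset.sum_add_distrib]
    refine Finset.sum_congr rfl fun k _ => ?_
    rw [pow_succ, add_assoc]
    ring

theorem alt_congr {r : ℕ} {g g' : (Fin r → ℕ) → ℝ}
    (h : ∀ x : Fin r → ℕ, (∀ i, x i ≤ 1) → g x = g' x) : alt r g = alt r g' := by
  induction r with
  | zero => exact h 0 fun i => i.elim0
  | succ r ih =>
    show alt r _ = alt r _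
    refine ih fun x hx => ?_
    rw [h (Fin.cons 0 x) fun i => ?_, h (Fin.cons 1 x) fun i => ?_]
    · refine Fin.cases ?_ (fun i => ?_) i <;> simp [hx]
    · refine Fin.cases ?_ (fun i => ?_) i <;> simp [hx]

/-- **Multi-affine + slow growth + values of the sum**: the difference relation. -/
theorem diff_eq_zero {n : ℕ} {g : (Fin (n + 1) → ℕ) → ℝ} (hg : MAff g) {C : ℝ}
    (hC : ∀ x, |g x| ≤ C * (1 + ∑ i, (x i : ℝ)) ^ n) {f : ℕ → ℝ}
    (hf : ∀ x : Fin (n + 1) → ℕ, (∀ i, x i ≤ 1) → g x = f (∑ i, x i)) :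
    ∑ k ∈ Finset.range (n + 2), (-1 : ℝ) ^ k * ((n + 1).choose k) * f k = 0 := by
  have h1 := alt_sum (n + 1) f 0
  simp only [zero_add] at h1
  rw [← h1, ← alt_congr hf]
  exact alt_eq_zero hg hC

/-! ### Two difference relations -/

section Two

/-- Functions on `ℕ²`. -/
abbrev Fn2 := ℕ × ℕ → ℝ

/-- Shift of the first variable. -/
def shX : Fn2 →ₗ[ℝ] Fn2 where
  toFun f := fun a => f (a.1 + 1, a.2)
  map_add' _ _ := rfl
  map_smul' _ _ := rfl

/-- Shift of the second variable. -/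
def shY : Fn2 →ₗ[ℝ] Fn2 where
  toFun f := fun a => f (a.1, a.2 + 1)
  map_add' _ _ := rfl
  map_smul' _ _ := rfl

theorem shX_shY : Commute shX shY := by
  ext f a
  rfl

theorem shX_pow (k : ℕ) (f : Fn2) (a : ℕ × ℕ) : (shX ^ k) f a = f (a.1 + k, a.2) := by
  induction k generalizing f a with
  | zero => rfl
  | succ k ih =>
    rw [pow_succ, Module.End.mul_apply, ih]
    show f (a.1 + k + 1, a.2) = _
    rw [add_assoc]

theorem shY_pow (k : ℕ) (f : Fn2) (a : ℕ × ℕ) : (shY ^ k) f a = f (a.1, a.2 + k) := by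
  induction k generalizing f a with
  | zero => rfl
  | succ k ih =>
    rw [pow_succ, Module.End.mul_apply, ih]
    show f (a.1, a.2 + k + 1) = _
    rw [add_assoc]

theorem sub_one_pow_apply (T : Module.End ℝ Fn2) (N : ℕ) (f : Fn2) (a : ℕ × ℕ) :
    ((1 - T) ^ N) f a =
      ∑ k ∈ Finset.range (N + 1), (-1 : ℝ) ^ k * (N.choose k) * (T ^ k) f a := by
  have h1 : (1 - T) ^ N = ∑ k ∈ Finset.range (N + 1), ((-1 : ℝ) ^ k * (N.choose k)) • T ^ k := by
    have h2 : (1 - T) = ((-1 : ℝ) • T) + 1 := by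
      have h3 : ((-1 : ℝ) • T) = -T := by
        ext g b
        simp
      rw [h3]; abel
    rw [h2, (Commute.one_right ((-1 : ℝ) • T)).add_pow]
    refine Finset.sum_congr rfl fun k _ => ?_
    rw [one_pow, mul_one, smul_pow, mul_smul, smul_mul_assoc]
    congr 1
    rw [← nsmul_eq_mul', Nat.cast_smul_eq_nsmul]
  rw [h1]
  simp [LinearMap.sum_apply, Finset.sum_apply, smul_eq_mul]

/-- Two commuting relations: if `(1 - Y)^N f = 0` and `(1 - XY)^N f = 0`, then
`(1 - X)^(2N) f = 0`. -/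
theorem two_rel {V : Type*} [AddCommGroup V] [Module ℝ V]
    {X Y : Module.End ℝ V} (hXY : Commute X Y) {N : ℕ} {f : V} (hY : ((1 - Y) ^ N) f = 0)
    (hZ : ((1 - X * Y) ^ N) f = 0) : ((1 - X) ^ (2 * N)) f = 0 := by
  have cYZ : Commute Y (X * Y) := (hXY.symm).mul_right (Commute.refl Y)
  have c1 : Commute (1 - X * Y) (1 - Y) :=
    ((Commute.one_left _).sub_left ((Commute.one_right _).sub_right cYZ.symm))
  have c2 : Commute (1 - X) Y := (Commute.one_left _).sub_left hXY
  have c3 : Commute (1 - X) (1 - Y) :=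
    (Commute.one_left _).sub_left ((Commute.one_right _).sub_right hXY)
  have e1 : (1 - X) * Y = (1 - X * Y) + (-1 : ℝ) • (1 - Y) := by
    rw [sub_mul, one_mul, neg_smul, one_smul]; abel
  have e2 : ((1 - X) ^ (2 * N) * Y ^ (2 * N)) f = 0 := by
    rw [← c2.mul_pow, e1, (c1.smul_right (-1 : ℝ)).add_pow, LinearMap.sum_apply]
    refine Finset.sum_eq_zero fun k hk => ?_
    rw [smul_pow]
    have c4 : Commute ((1 - X * Y) ^ k) ((1 - Y) ^ (2 * N - k)) := c1.pow_pow _ _
    rcases le_total N k with h | h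
    · rw [mul_smul_comm, c4.eq]
      have : (1 - X * Y) ^ k = (1 - X * Y) ^ (k - N) * (1 - X * Y) ^ N := by
        rw [← pow_add]; congr 1; omega
      rw [this]
      simp only [Module.End.mul_apply, smul_mul_assoc, LinearMap.smul_apply,
        Module.End.natCast_apply, map_nsmul, hZ, map_zero, smul_zero]
    · have : (1 - Y) ^ (2 * N - k) = (1 - Y) ^ (N - k) * (1 - Y) ^ N := by
        rw [← pow_add]; congr 1; omega
      rw [this]
      simp only [Module.End.mul_apply, mul_smul_comm, smul_mul_assoc, LinearMap.smul_apply,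
        Module.End.natCast_apply, map_nsmul, hY, map_zero, smul_zero]
  set g := ((1 - X) ^ (2 * N)) f with hg
  have e3 : (Y ^ (2 * N)) g = 0 := by
    rw [hg, ← Module.End.mul_apply, ← (c2.pow_pow (2 * N) (2 * N)).eq]
    exact e2
  have e4 : ((1 - Y) ^ N) g = 0 := by
    rw [hg, ← Module.End.mul_apply, ← (c3.pow_pow (2 * N) N).eq, Module.End.mul_apply, hY, map_zero]
  have hc : IsCoprime ((Polynomial.X : Polynomial ℝ) ^ (2 * N)) ((1 - Polynomial.X) ^ N) := by
    refine IsCoprime.pow ⟨1, 1, by ring⟩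
  obtain ⟨a, b, hab⟩ := hc
  have e5 := congrArg (fun P : Polynomial ℝ => (Polynomial.aeval Y P) g) hab
  simp only [map_add, map_mul, map_pow, Polynomial.aeval_X, map_sub, map_one,
    LinearMap.add_apply, Module.End.mul_apply, e3, e4, map_zero, add_zero,
    Module.End.one_apply] at e5
  exact e5.symm

/-- If `f` on `ℕ²` satisfies the two difference relations of order `N` in the directions `(0,1)`
and `(1,1)` and `f (0,0) ≠ 0`, then `f (m, 0) ≠ 0` for some `m` with `1 ≤ m ≤ 2N`. -/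
theorem exists_ne_zero {N : ℕ} {f : ℕ → ℕ → ℝ}
    (hY : ∀ m a, ∑ k ∈ Finset.range (N + 1), (-1 : ℝ) ^ k * (N.choose k) * f m (a + k) = 0)
    (hXY : ∀ m a, ∑ k ∈ Finset.range (N + 1), (-1 : ℝ) ^ k * (N.choose k) * f (m + k) (a + k) = 0)
    (h0 : f 0 0 ≠ 0) : ∃ m, 1 ≤ m ∧ m ≤ 2 * N ∧ f m 0 ≠ 0 := by
  set F : Fn2 := fun a => f a.1 a.2 with hF
  have h1 : ((1 - shY) ^ N) F = 0 := by
    funext a
    rw [sub_one_pow_apply]
    simp only [shY_pow]
    exact hY a.1 a.2
  have h2 : ((1 - shX * shY) ^ N) F = 0 := by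
    funext a
    rw [sub_one_pow_apply]
    simp only [shX_shY.mul_pow, Module.End.mul_apply, shX_pow, shY_pow]
    exact hXY a.1 a.2
  have h3 := congrFun (two_rel shX_shY h1 h2) (0, 0)
  rw [sub_one_pow_apply] at h3
  simp only [shX_pow, zero_add, Pi.zero_apply] at h3
  by_contra hcon
  push Not at hcon
  rw [Finset.sum_eq_single_of_mem 0 (by simp)] at h3
  · simp only [pow_zero, Nat.choose_zero_right, Nat.cast_one, mul_one, one_mul] at h3
    exact h0 h3
  · intro k hk hk0
    have := hcon k (by omega) (by simpa using Finset.mem_range_succ_iff.1 hk)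
    simp [hF, this]

end Two

end Vale.Agent.P299.H98
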