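import Vale.Agent.P299.H98.Pencil.Right
import Vale.Agent.P299.H98.Pencil.Abs

set_option linter.all false

/-! P299, package A-PENCIL: dimensions. -/

open MeasureTheory Filter Topology
open scoped ENNReal NNReal ComplexConjugate

namespace Vale.Agent.P299.H98

open Vale.Agent.P300.L2 Vale.Agent.P300.L2.Sheets Vale.Agent.P299.Pencil

theorem finrank_exact {A B C : Type*} [AddCommGroup A] [Module ℂ A] [AddCommGroup B] [Module ℂ B]
    [AddCommGroup C] [Module ℂ C] [FiniteDimensional ℂ B] (i : A →ₗ[ℂ] B) (π : B →ₗ[ℂ] C)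
    (hi : Function.Injective i) (hπ : Function.Surjective π)
    (h : ∀ b, π b = 0 ↔ ∃ a, i a = b) :
    Module.finrank ℂ A + Module.finrank ℂ C = Module.finrank ℂ B := by
  have h1 := LinearMap.finrank_range_add_finrank_ker π
  have h2 : LinearMap.ker π = LinearMap.range i := by
    ext b
    rw [LinearMap.mem_ker, h b, LinearMap.mem_range]
  rw [h2, LinearMap.finrank_range_of_inj hi, LinearMap.range_eq_top.2 hπ, finrank_top] at h1
  omega

variable {n N : ℕ} {S : Sheets n N} {p : (Fin n → ℂ) → ℝ} {C : ℝ} {k0 : ℕ}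

/-- Multiplication by `g` as a linear map. -/
def mulL (g : Pt n → ℂ) (A B : Submodule ℂ (Pt n → ℂ))
    (h : ∀ G ∈ A, (fun q => g q * G q) ∈ B) : A →ₗ[ℂ] B where
  toFun G := ⟨fun q => g q * G.1 q, h G.1 G.2⟩
  map_add' G G' := by
    ext q
    simp [mul_add]
  map_smul' c G := by
    ext q
    simp [mul_left_comm]

theorem A2_eq_zero {w : Pt n → ℝ≥0∞} {G : Pt n → ℂ} (hG : G ∈ A2 S w)
    (h : ∀ᵐ q ∂S.μ, G q = 0) : G = 0 := by
  funext q
  by_cases hq : q ∈ S.M
  · exact eqM_of_ae (F := G) (G := fun _ => 0) (hG.1.CD 0) (CD.const 0) h hq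
  · exact hG.2.1 q hq

theorem A2_ext {w w' : Pt n → ℝ≥0∞} {F G : Pt n → ℂ} (hF : F ∈ A2 S w) (hG : G ∈ A2 S w')
    (h : ∀ q ∈ S.M, F q = G q) : F = G := by
  funext q
  by_cases hq : q ∈ S.M
  · exact h q hq
  · rw [hF.2.1 q hq, hG.2.1 q hq]

/-- **The dimension formula of a pencil.** -/
theorem finrank_pencil (hp : Exh S.V p C k0) {w : Pt n → ℝ≥0∞} (hw : PshD S p w)
    {u v : Pt n → ℂ} (hu : HP S p u) (hv : HP S p v) (hu0 : ∀ᵐ q ∂S.μ, u q ≠ 0) {δ : ℝ}
    (hδ : 0 < δ)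
    [FiniteDimensional ℂ (A2 S (fun q => w q * WE u v q ^ (-(δ + 1))))] :
    Module.finrank ℂ (A2 S (fun q => w q * WE u v q ^ (-δ))) +
      Module.finrank ℂ (A2 S (fun q => w q * WE u v q ^ (-(δ + 2)))) =
      2 * Module.finrank ℂ (A2 S (fun q => w q * WE u v q ^ (-(δ + 1)))) := by
  have hp0 := exh_nonneg hp
  have e2 : (fun q => w q * WE u v q ^ (-(δ + 2))) = fun q => w q * WE u v q ^ (-(δ + 1 + 1)) := by
    funext q
    congr 2
    ring
  have m1 : ∀ G ∈ A2 S (fun q => w q * WE u v q ^ (-δ)), (fun q => u q * G q) ∈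
      A2 S (fun q => w q * WE u v q ^ (-(δ + 1))) := fun G hG =>
    mul_mem hp0 hw hu hv hu0 hδ.le hu.holo (enorm_sq_le_WE_left u v) hG
  have m2 : ∀ G ∈ A2 S (fun q => w q * WE u v q ^ (-δ)), (fun q => v q * G q) ∈
      A2 S (fun q => w q * WE u v q ^ (-(δ + 1))) := fun G hG =>
    mul_mem hp0 hw hu hv hu0 hδ.le hv.holo (enorm_sq_le_WE_right u v) hG
  have m3 : ∀ G ∈ A2 S (fun q => w q * WE u v q ^ (-(δ + 1))), (fun q => u q * G q) ∈
      A2 S (fun q => w q * WE u v q ^ (-(δ + 2))) := by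
    intro G hG
    rw [e2]
    exact mul_mem hp0 hw hu hv hu0 (by linarith) hu.holo (enorm_sq_le_WE_left u v) hG
  have m4 : ∀ G ∈ A2 S (fun q => w q * WE u v q ^ (-(δ + 1))), (fun q => v q * G q) ∈
      A2 S (fun q => w q * WE u v q ^ (-(δ + 2))) := by
    intro G hG
    rw [e2]
    exact mul_mem hp0 hw hu hv hu0 (by linarith) hv.holo (enorm_sq_le_WE_right u v) hG
  have key := finrank_exact
    (LinearMap.prod (mulL u _ _ m1) (mulL v _ _ m2))
    ((mulL v _ _ m4).comp (LinearMap.fst ℂ _ _) - (mulL u _ _ m3).comp (LinearMap.snd ℂ _ _))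
    ?_ ?_ ?_
  · rw [key, Module.finrank_prod]
    ring
  · rw [injective_iff_map_eq_zero]
    intro G hG
    have h1 : mulL u _ _ m1 G = 0 := congrArg Prod.fst hG
    have h2 : ∀ q, u q * G.1 q = 0 := fun q => congrFun (congrArg Subtype.val h1) q
    refine Subtype.ext (A2_eq_zero G.2 ?_)
    filter_upwards [hu0] with q hq
    exact (mul_eq_zero.1 (h2 q)).resolve_left hq
  · intro F
    obtain ⟨F1, h1, F2, h2, h3⟩ := exact_right hp hw hu hv hu0 hδ F.2
    refine ⟨(⟨F1, h1⟩, ⟨F2, h2⟩), Subtype.ext ?_⟩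
    refine A2_ext (S := S) (Subtype.mem _) F.2 fun q hq => ?_
    rw [h3 q hq]
    rfl
  · rintro ⟨F1, F2⟩
    constructor
    · intro h
      have h1 : ∀ q, v q * F1.1 q - u q * F2.1 q = 0 := fun q =>
        congrFun (congrArg Subtype.val h) q
      obtain ⟨G, hG, h2⟩ := exact_mid hp hw hu hv hu0 hδ.le F1.2 F2.2
        (fun q _ => sub_eq_zero.1 (h1 q))
      refine ⟨⟨G, hG⟩, Prod.ext (Subtype.ext ?_) (Subtype.ext ?_)⟩
      · exact A2_ext (S := S) (m1 G hG) F1.2 fun q hq => (h2 q hq).1.symm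
      · exact A2_ext (S := S) (m2 G hG) F2.2 fun q hq => (h2 q hq).2.symm
    · rintro ⟨G, hG⟩
      have h1 : mulL u _ _ m1 G = F1 := congrArg Prod.fst hG
      have h2 : mulL v _ _ m2 G = F2 := congrArg Prod.snd hG
      rw [← h1, ← h2]
      refine Subtype.ext ?_
      funext q
      show v q * (u q * G.1 q) - u q * (v q * G.1 q) = 0
      ring

end Vale.Agent.P299.H98
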