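import Vale.Agent.P299.H213.Pencil.Defs
import Vale.Agent.P300.H435.L2.LeviLog
import Vale.Agent.P271.H408.Ext

set_option linter.all false

/-! P299, package A-PENCIL: weighted spaces of holomorphic functions on the total space of a cover,
singular plurisubharmonic weights as decreasing sequences. -/

open MeasureTheory Filter Topology
open scoped ENNReal NNReal ComplexConjugate

namespace Vale.Agent.P299.H98

open Vale.Agent.P300.L2 Vale.Agent.P300.L2.Sheets Vale.Agent.P299.Pencil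

variable {n N : ℕ}

/-- A decreasing sequence of `C²` plurisubharmonic weights. -/
structure PSeq (S : Sheets n N) (p : (Fin n → ℂ) → ℝ) (Φ : ℕ → Pt n → ℝ) : Prop where
  cd : ∀ m, S.CD 2 (fun q => (Φ m q : ℂ))
  anti : ∀ m, ∀ q ∈ S.M, Φ (m + 1) q ≤ Φ m q
  low : ∀ m, ∃ (c : ℝ) (k : ℕ), ∀ q ∈ S.M, Real.exp (-Φ m q) ≤ c * (1 + p q.1) ^ k
  levi : ∀ m, ∀ q ∈ S.M, ∀ β : Fin n → ℂ, 0 ≤ S.levi (Φ m) β q

/-- The density `e^{-φ}`, `φ = lim Φ m`. -/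
noncomputable def dens (Φ : ℕ → Pt n → ℝ) (q : Pt n) : ℝ≥0∞ :=
  ⨆ m, ENNReal.ofReal (Real.exp (-Φ m q))

theorem pshD_iff {S : Sheets n N} {p : (Fin n → ℂ) → ℝ} {w : Pt n → ℝ≥0∞} :
    PshD S p w ↔ (∃ Φ, PSeq S p Φ ∧ ∀ q ∈ S.M, w q = dens Φ q) ∧
      ∃ (c : ℝ) (k : ℕ), 0 < c ∧
        ∀ q ∈ S.M, ENNReal.ofReal c ≤ w q * ENNReal.ofReal ((1 + p q.1) ^ k) := by
  constructor
  · rintro ⟨⟨Φ, h1, h2, h3, h4, h5⟩, h6⟩
    exact ⟨⟨Φ, ⟨h1, h2, h3, h4⟩, h5⟩, h6⟩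
  · rintro ⟨⟨Φ, ⟨h1, h2, h3, h4⟩, h5⟩, h6⟩
    exact ⟨⟨Φ, h1, h2, h3, h4, h5⟩, h6⟩

theorem mem_A2' {S : Sheets n N} {w : Pt n → ℝ≥0∞} (hw : AEMeasurable w S.μ)
    {F : Pt n → ℂ} :
    F ∈ A2 S w ↔ S.Holo F ∧ (∀ q, q ∉ S.M → F q = 0) ∧ ∫⁻ q, ‖F q‖ₑ ^ 2 * w q ∂S.μ < ⊤ := by
  constructor
  · rintro ⟨hF, hF0, hF2⟩
    refine ⟨hF, hF0, ?_⟩
    rwa [lintegral_withDensity_eq hw hF] at hF2
  · rintro ⟨hF, hF0, hF2⟩
    refine ⟨hF, hF0, ?_⟩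
    rwa [lintegral_withDensity_eq hw hF]

theorem A2_congr {S : Sheets n N} {w w' : Pt n → ℝ≥0∞} (h : w =ᵐ[S.μ] w') :
    A2 S w = A2 S w' := by
  ext F
  show (S.Holo F ∧ _ ∧ _) ↔ (S.Holo F ∧ _ ∧ _)
  rw [withDensity_congr_ae h]

theorem A2_congr_M {S : Sheets n N} {w w' : Pt n → ℝ≥0∞} (h : ∀ q ∈ S.M, w q = w' q) :
    A2 S w = A2 S w' := by
  refine A2_congr ?_
  filter_upwards [ae_mem_M (S := S)] with q hq using h q hq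

theorem A2_mono {S : Sheets n N} {w w' : Pt n → ℝ≥0∞} {C : ℝ≥0∞} (hC : C ≠ ⊤)
    (hw : AEMeasurable w S.μ) (hw' : AEMeasurable w' S.μ) (h : ∀ᵐ q ∂S.μ, w q ≤ C * w' q) :
    A2 S w' ≤ A2 S w := by
  intro F hF
  rw [mem_A2' hw'] at hF
  rw [mem_A2' hw]
  refine ⟨hF.1, hF.2.1, ?_⟩
  calc ∫⁻ q, ‖F q‖ₑ ^ 2 * w q ∂S.μ ≤ ∫⁻ q, C * (‖F q‖ₑ ^ 2 * w' q) ∂S.μ := by
        refine lintegral_mono_ae ?_
        filter_upwards [h] with q hq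
        calc ‖F q‖ₑ ^ 2 * w q ≤ ‖F q‖ₑ ^ 2 * (C * w' q) := by gcongr
          _ = C * (‖F q‖ₑ ^ 2 * w' q) := by ring
    _ = C * ∫⁻ q, ‖F q‖ₑ ^ 2 * w' q ∂S.μ := lintegral_const_mul' _ _ hC
    _ < ⊤ := ENNReal.mul_lt_top (lt_top_iff_ne_top.2 hC) hF.2.2

theorem aemeasurable_real {S : Sheets n N} {u : Pt n → ℝ}
    (hu : S.CD 0 (fun q => (u q : ℂ))) : AEMeasurable u S.μ := by
  have h := (Complex.measurable_re.comp_aemeasurable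
    (aestronglyMeasurable_of_CD hu).aemeasurable)
  refine h.congr (Eventually.of_forall fun q => ?_)
  simp

theorem aemeasurable_dens {S : Sheets n N} {Φ : ℕ → Pt n → ℝ}
    (hΦ : ∀ m, S.CD 0 (fun q => (Φ m q : ℂ))) : AEMeasurable (dens Φ) S.μ := by
  refine AEMeasurable.iSup fun m => ?_
  exact (Real.measurable_exp.comp_aemeasurable (aemeasurable_real (hΦ m)).neg).ennreal_ofReal

theorem PSeq.aemeasurable {S : Sheets n N} {p : (Fin n → ℂ) → ℝ} {Φ : ℕ → Pt n → ℝ}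
    (h : PSeq S p Φ) : AEMeasurable (dens Φ) S.μ :=
  aemeasurable_dens fun m => (h.cd m).mono (by norm_num)

theorem pshD_ae {S : Sheets n N} {p : (Fin n → ℂ) → ℝ} {w : Pt n → ℝ≥0∞}
    (h : PshD S p w) : AEMeasurable w S.μ := by
  obtain ⟨⟨Φ, hΦ, hw⟩, -⟩ := pshD_iff.1 h
  refine hΦ.aemeasurable.congr ?_
  filter_upwards [ae_mem_M (S := S)] with q hq
  exact (hw q hq).symm

theorem dens_pos (Φ : ℕ → Pt n → ℝ) (q : Pt n) : 0 < dens Φ q :=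
  lt_of_lt_of_le (ENNReal.ofReal_pos.2 (Real.exp_pos (-Φ 0 q)))
    (le_iSup (fun m => ENNReal.ofReal (Real.exp (-Φ m q))) 0)

theorem le_dens (Φ : ℕ → Pt n → ℝ) (m : ℕ) (q : Pt n) :
    ENNReal.ofReal (Real.exp (-Φ m q)) ≤ dens Φ q :=
  le_iSup (fun m => ENNReal.ofReal (Real.exp (-Φ m q))) m

end Vale.Agent.P299.H98
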