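import Vale.Agent.P299.H98.Pencil.Defs

set_option linter.all false

/-! P299, package A-PENCIL: `L²` extension over the zero set of a holomorphic function, on the
total space of a cover. -/

open MeasureTheory Filter Topology Metric
open scoped ENNReal NNReal ComplexConjugate

namespace Vale.Agent.P299.H98

open Vale.Agent.P300.L2 Vale.Agent.P300.L2.Sheets Vale.Agent.P299.Pencil

variable {n N : ℕ} {S : Sheets n N}

/-- Integrals over one sheet. -/
theorem lintegral_section_le {W : Set (Fin n → ℂ)} {s : (Fin n → ℂ) → ℕ} (hs : S.IsSection W s)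
    {f : (Fin n → ℂ) × ℕ → ℝ≥0∞} (hf : AEMeasurable f S.μ) {K : Set (Fin n → ℂ)}
    (hK : MeasurableSet K) (hKW : K ⊆ W) :
    ∫⁻ z in K, f (z, s z) ≤ ∫⁻ q in {q : (Fin n → ℂ) × ℕ | q.1 ∈ K}, f q ∂S.μ := by
  have hKm : MeasurableSet {q : (Fin n → ℂ) × ℕ | q.1 ∈ K} := measurable_fst hK
  rw [← lintegral_indicator hKm, lintegral_μ' (hf.indicator hKm)]
  have h1 : ∫⁻ z in K, f (z, s z) = ∫⁻ z in S.V, K.indicator (fun z => f (z, s z)) z := by
    rw [lintegral_indicator hK, Measure.restrict_restrict hK,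
      Set.inter_eq_left.2 (hKW.trans hs.subset)]
  rw [h1]
  refine lintegral_mono fun z => ?_
  by_cases hz : z ∈ K
  · rw [Set.indicator_of_mem hz]
    have h2 := Finset.single_le_sum (f := fun w =>
      {q : (Fin n → ℂ) × ℕ | q.1 ∈ K}.indicator f (z, w)) (fun _ _ => zero_le)
      (hs.mem z (hKW hz))
    refine le_trans (le_of_eq ?_) h2
    rw [Set.indicator_of_mem]
    exact hz
  · rw [Set.indicator_of_notMem hz]
    exact zero_le

/-- A property which holds a.e. on the total space holds a.e. along every section. -/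
theorem ae_section {W : Set (Fin n → ℂ)} {s : (Fin n → ℂ) → ℕ} (hs : S.IsSection W s)
    {P : (Fin n → ℂ) × ℕ → Prop} (h : ∀ᵐ q ∂S.μ, P q) :
    ∀ᵐ z ∂(volume : Measure (Fin n → ℂ)), z ∈ W → P (z, s z) := by
  have h2 := ae_μ_iff.1 h
  rw [ae_restrict_iff' S.isOpen.measurableSet] at h2
  filter_upwards [h2] with z h3 hzW
  exact h3 (hs.subset hzW) (s z) (hs.mem z hzW)

/-- A property which holds a.e. holds frequently near every point along a section. -/
theorem frequently_section {W : Set (Fin n → ℂ)} {s : (Fin n → ℂ) → ℕ} (hs : S.IsSection W s)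
    {P : (Fin n → ℂ) × ℕ → Prop} (h : ∀ᵐ q ∂S.μ, P q) {z : Fin n → ℂ} (hz : z ∈ W) :
    ∃ᶠ y in 𝓝 z, P (y, s y) := by
  rw [frequently_iff]
  intro U hU
  have hO : IsOpen (interior U ∩ W) := isOpen_interior.inter hs.isOpen
  have hz' : z ∈ interior U ∩ W := ⟨mem_interior_iff_mem_nhds.2 hU, hz⟩
  have hpos : 0 < (volume : Measure (Fin n → ℂ)) (interior U ∩ W) :=
    hO.measure_pos _ ⟨z, hz'⟩
  by_contra hcon
  push Not at hcon
  have h1 := ae_section hs h
  have h2 : (volume : Measure (Fin n → ℂ)) (interior U ∩ W) = 0 := by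
    refine measure_mono_null (fun y hy => ?_) (ae_iff.1 h1)
    exact fun h3 => hcon y (interior_subset hy.1) (h3 hy.2)
  exact hpos.ne' h2

/-- **`L²` extension on the total space**. -/
theorem ext_sheets {w f : (Fin n → ℂ) × ℕ → ℂ} (hw : S.Holo w) (hw0 : ∀ᵐ q ∂S.μ, w q ≠ 0)
    (hf : ∀ W s, S.IsSection W s →
      DifferentiableOn ℂ (fun z => f (z, s z)) (W ∩ {z | w (z, s z) ≠ 0}))
    (hfm : AEStronglyMeasurable f S.μ)
    (hL : ∀ K : Set (Fin n → ℂ), IsCompact K → K ⊆ S.V →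
      ∫⁻ q in {q : (Fin n → ℂ) × ℕ | q.1 ∈ K}, ‖f q‖ₑ ^ 2 ∂S.μ < ⊤) :
    ∃ G : (Fin n → ℂ) × ℕ → ℂ, S.Holo G ∧ (∀ q ∈ S.M, w q ≠ 0 → G q = f q) ∧
      (∀ q, q ∉ S.M → G q = 0) := by
  classical
  have key : ∀ (W : Set (Fin n → ℂ)) (s : (Fin n → ℂ) → ℕ), S.IsSection W s →
      ∃ g : (Fin n → ℂ) → ℂ, DifferentiableOn ℂ g W ∧
        ∀ z ∈ W, w (z, s z) ≠ 0 → g z = f (z, s z) := by
    intro W s hs
    refine Vale.Agent.P271.H408.ext_L2 hs.isOpen (h := fun z => w (z, s z)) (hw W s hs) ?_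
      (hf W s hs) ?_
    · intro z hz
      exact frequently_section hs hw0 hz
    · intro z hz
      obtain ⟨r, hr, hrW⟩ := Metric.nhds_basis_closedBall.mem_iff.1 (hs.isOpen.mem_nhds hz)
      refine ⟨r, hr, ?_⟩
      have h1 := lintegral_section_le hs (f := fun q => ‖f q‖ₑ ^ 2) (hfm.enorm.pow_const 2)
        (isClosed_closedBall.measurableSet) hrW
      have h2 := hL (closedBall z r) (isCompact_closedBall z r) (hrW.trans hs.subset)
      refine ne_top_of_le_ne_top (h1.trans_lt h2).ne ?_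
      exact lintegral_mono_set (Set.inter_subset_left.trans ball_subset_closedBall)
  have hsec : ∀ q : (Fin n → ℂ) × ℕ, ∃ (W : Set (Fin n → ℂ)) (s : (Fin n → ℂ) → ℕ)
      (g : (Fin n → ℂ) → ℂ), q ∈ S.M → S.IsSection W s ∧ q.1 ∈ W ∧ s q.1 = q.2 ∧
        DifferentiableOn ℂ g W ∧ ∀ z ∈ W, w (z, s z) ≠ 0 → g z = f (z, s z) := by
    intro q
    by_cases hq : q ∈ S.M
    · obtain ⟨s, W, hs, hz, hsq⟩ := exists_section hq
      obtain ⟨g, hg, hge⟩ := key W s hs
      exact ⟨W, s, g, fun _ => ⟨hs, hz, hsq, hg, hge⟩⟩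
    · exact ⟨∅, fun _ => 0, fun _ => 0, fun h => absurd h hq⟩
  choose W s g hWs using hsec
  -- agreement
  have hagree : ∀ q ∈ S.M, ∀ q' ∈ S.M, q'.1 ∈ W q → q'.2 = s q q'.1 → g q q'.1 = g q' q'.1 := by
    intro q hq q' hq' h1 h2
    obtain ⟨a1, a2, a3, a4, a5⟩ := hWs q hq
    obtain ⟨b1, b2, b3, b4, b5⟩ := hWs q' hq'
    have hgerm : s q =ᶠ[𝓝 q'.1] s q' := a1.germ b1 h1 b2 (by rw [b3, h2])
    by_contra hne
    have c1 : ContinuousAt (g q) q'.1 := a4.continuousOn.continuousAt (a1.isOpen.mem_nhds h1)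
    have c2 : ContinuousAt (g q') q'.1 := b4.continuousOn.continuousAt (b1.isOpen.mem_nhds b2)
    have h3 : ∀ᶠ y in 𝓝 q'.1, g q y ≠ g q' y := (c1.ne_iff_eventually_ne c2).1 hne
    have e1 : ∀ᶠ y in 𝓝 q'.1, y ∈ W q := a1.isOpen.mem_nhds h1
    have e2 : ∀ᶠ y in 𝓝 q'.1, y ∈ W q' := b1.isOpen.mem_nhds b2
    have h4 := (frequently_section b1 hw0 b2).and_eventually (h3.and (hgerm.and (e1.and e2)))
    obtain ⟨y, d1, d2, d3, d4, d5⟩ := h4.exists
    refine d2 ?_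
    rw [a5 y d4 (by rw [d3]; exact d1), b5 y d5 d1, d3]
  refine ⟨fun q => if q ∈ S.M then g q q.1 else 0, ?_, ?_, ?_⟩
  · intro W' σ hσ z hz
    have hq : (z, σ z) ∈ S.M := hσ.mem_M hz
    obtain ⟨a1, a2, a3, a4, a5⟩ := hWs _ hq
    have hgerm : s (z, σ z) =ᶠ[𝓝 z] σ := a1.germ hσ a2 hz a3
    have h4 : DifferentiableAt ℂ (g (z, σ z)) z := a4.differentiableAt (a1.isOpen.mem_nhds a2)
    refine (h4.congr_of_eventuallyEq ?_).differentiableWithinAt
    filter_upwards [hgerm, hσ.isOpen.mem_nhds hz, a1.isOpen.mem_nhds a2] with y h5 h6 h7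
    have hy : (y, σ y) ∈ S.M := hσ.mem_M h6
    rw [if_pos hy]
    exact (hagree _ hq (y, σ y) hy h7 h5.symm).symm
  · intro q hq hwq
    obtain ⟨a1, a2, a3, a4, a5⟩ := hWs q hq
    simp only [if_pos hq]
    have h1 : q = (q.1, s q q.1) := Prod.ext rfl a3.symm
    rw [a5 q.1 a2 (by rw [← h1]; exact hwq), ← h1]
  · intro q hq
    simp only [if_neg hq]

end Vale.Agent.P299.H98
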