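import Vale.Agent.P299.H98.Pencil.Seq
import Vale.Agent.P299.H98.Pencil.Ext

set_option linter.all false

/-! P299, package A-PENCIL: calculus of densities. -/

open MeasureTheory Filter Topology
open scoped ENNReal NNReal ComplexConjugate

namespace Vale.Agent.P299.H98

open Vale.Agent.P300.L2 Vale.Agent.P300.L2.Sheets Vale.Agent.P299.Pencil

variable {n N : ℕ} {S : Sheets n N}

/-- `|F|²` as an extended number. -/
noncomputable def nE {r : ℕ} (F : Fin r → Pt n → ℂ) (q : Pt n) : ℝ≥0∞ :=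
  ENNReal.ofReal (∑ j, ‖F j q‖ ^ 2)

theorem nE_ne_top {r : ℕ} (F : Fin r → Pt n → ℂ) (q : Pt n) : nE F q ≠ ⊤ :=
  ENNReal.ofReal_ne_top

theorem nE_ne_zero {r : ℕ} {F : Fin r → Pt n → ℂ} {q : Pt n} {j : Fin r} (h : F j q ≠ 0) :
    nE F q ≠ 0 := by
  rw [nE, ne_eq, ENNReal.ofReal_eq_zero, not_le]
  have h1 : 0 < ‖F j q‖ ^ 2 := by positivity
  exact lt_of_lt_of_le h1
    (Finset.single_le_sum (f := fun j => ‖F j q‖ ^ 2) (fun _ _ => by positivity)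
      (Finset.mem_univ j))

theorem enorm_sq_le_nE {r : ℕ} (F : Fin r → Pt n → ℂ) (q : Pt n) (j : Fin r) :
    ‖F j q‖ₑ ^ 2 ≤ nE F q := by
  rw [← ofReal_norm, ← ENNReal.ofReal_pow (norm_nonneg _), nE]
  exact ENNReal.ofReal_le_ofReal
    (Finset.single_le_sum (f := fun j => ‖F j q‖ ^ 2) (fun _ _ => by positivity)
      (Finset.mem_univ j))

theorem aemeasurable_nE {r : ℕ} {F : Fin r → Pt n → ℂ} (hF : ∀ j, S.Holo (F j)) :
    AEMeasurable (nE F) S.μ := by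
  unfold nE
  refine AEMeasurable.ennreal_ofReal (Finset.aemeasurable_fun_sum _ fun j _ => ?_)
  exact ((aestronglyMeasurable_of_CD ((hF j).CD 0)).norm.aemeasurable).pow_const 2

/-- Products with `|F|^{-2c}`. -/
theorem pshD_mulLog {p : (Fin n → ℂ) → ℝ} (hp : ∀ z ∈ S.V, 0 ≤ p z) {w : Pt n → ℝ≥0∞}
    (hw : PshD S p w) {r : ℕ}
    {F : Fin r → Pt n → ℂ} (hF : ∀ j, S.Holo (F j)) (hFb : ∀ j, PB S p (F j)) {c : ℝ}
    (hc : 0 ≤ c) : PshD S p (fun q => w q * nE F q ^ (-c)) := by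
  obtain ⟨⟨Φ, hΦ, hwΦ⟩, c0, k, hc0, hlow⟩ := pshD_iff.1 hw
  refine pshD_iff.2 ⟨⟨addLog Φ c F, hΦ.addLog hF hc, fun q hq => ?_⟩, ?_⟩
  · rw [dens_addLog hΦ F hc hq, ← hwΦ q hq]
    rfl
  · choose cF kF hFb' using hFb
    set B : ℝ := 1 + ∑ j, cF j ^ 2 with hB
    set K : ℕ := ∑ j, 2 * kF j with hK
    have hB1 : 1 ≤ B := by
      have : 0 ≤ ∑ j, cF j ^ 2 := by positivity
      linarith
    have hsum : ∀ q ∈ S.M, ∑ j, ‖F j q‖ ^ 2 ≤ B * (1 + p q.1) ^ K := by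
      intro q hq
      have hp0 : 1 ≤ 1 + p q.1 := by linarith [hp q.1 hq.1]
      calc ∑ j, ‖F j q‖ ^ 2 ≤ ∑ j, cF j ^ 2 * (1 + p q.1) ^ K := by
            refine Finset.sum_le_sum fun j _ => ?_
            calc ‖F j q‖ ^ 2 ≤ (cF j * (1 + p q.1) ^ kF j) ^ 2 :=
                  pow_le_pow_left₀ (norm_nonneg _) (hFb' j q hq) 2
              _ = cF j ^ 2 * (1 + p q.1) ^ (2 * kF j) := by ring
              _ ≤ cF j ^ 2 * (1 + p q.1) ^ K := by
                  gcongr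
                  exact Finset.single_le_sum (f := fun j => 2 * kF j) (fun _ _ => Nat.zero_le _)
                      (Finset.mem_univ j)
        _ = (∑ j, cF j ^ 2) * (1 + p q.1) ^ K := by rw [Finset.sum_mul]
        _ ≤ B * (1 + p q.1) ^ K := by
            gcongr
            rw [hB]; linarith
    obtain ⟨L, hL⟩ := exists_nat_ge (K * c)
    refine ⟨c0 * B ^ (-c), k + L, by positivity, fun q hq => ?_⟩
    have hp0 : 1 ≤ 1 + p q.1 := by linarith [hp q.1 hq.1]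
    have h1 : ENNReal.ofReal (B ^ (-c)) ≤ nE F q ^ (-c) * ENNReal.ofReal ((1 + p q.1) ^ L) := by
      have hX : 0 < B * (1 + p q.1) ^ K := by positivity
      have h2 : (ENNReal.ofReal (B * (1 + p q.1) ^ K)) ^ (-c) ≤ nE F q ^ (-c) := by
        simp only [ENNReal.rpow_neg]
        exact ENNReal.inv_le_inv.2 (ENNReal.rpow_le_rpow
          (ENNReal.ofReal_le_ofReal (hsum q hq)) hc)
      refine le_trans ?_ (mul_le_mul' h2 le_rfl)
      rw [ENNReal.ofReal_rpow_of_pos hX, ← ENNReal.ofReal_mul (by positivity)]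
      refine ENNReal.ofReal_le_ofReal ?_
      rw [Real.mul_rpow (by positivity) (by positivity), ← Real.rpow_natCast, ← Real.rpow_natCast,
        ← Real.rpow_mul (by linarith), mul_assoc, ← Real.rpow_add (by linarith)]
      refine le_mul_of_one_le_right (by positivity) (Real.one_le_rpow hp0 ?_)
      linarith
    calc ENNReal.ofReal (c0 * B ^ (-c)) = ENNReal.ofReal c0 * ENNReal.ofReal (B ^ (-c)) :=
          ENNReal.ofReal_mul hc0.le
      _ ≤ (w q * ENNReal.ofReal ((1 + p q.1) ^ k)) *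
          (nE F q ^ (-c) * ENNReal.ofReal ((1 + p q.1) ^ L)) := mul_le_mul' (hlow q hq) h1
      _ = w q * nE F q ^ (-c) * ENNReal.ofReal ((1 + p q.1) ^ (k + L)) := by
          rw [pow_add, ENNReal.ofReal_mul (by positivity)]
          ring

/-- The density is bounded from below over compact sets. -/
theorem pshD_loc {p : (Fin n → ℂ) → ℝ} {w : Pt n → ℝ≥0∞} (hw : PshD S p w)
    {K : Set (Fin n → ℂ)} (hK : IsCompact K) (hKV : K ⊆ S.V) :
    ∃ c : ℝ, 0 < c ∧ ∀ q ∈ S.M, q.1 ∈ K → ENNReal.ofReal c ≤ w q := by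
  obtain ⟨⟨Φ, hΦ, hwΦ⟩, -⟩ := pshD_iff.1 hw
  obtain ⟨B, hB⟩ := exists_bound ((hΦ.cd 0).mono (Nat.zero_le 2)) hK hKV
  refine ⟨Real.exp (-B), Real.exp_pos _, fun q hq hqK => ?_⟩
  have h1 := hB q hq hqK
  rw [Complex.norm_real, Real.norm_eq_abs] at h1
  rw [hwΦ q hq]
  refine le_trans (ENNReal.ofReal_le_ofReal (Real.exp_le_exp.2 (neg_le_neg ?_))) (le_dens Φ 0 q)
  exact (le_abs_self _).trans h1

theorem pshD_locL2 {p : (Fin n → ℂ) → ℝ} {w : Pt n → ℝ≥0∞} (hw : PshD S p w) {f : Pt n → ℂ}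
    (hf : ∫⁻ q, ‖f q‖ₑ ^ 2 * w q ∂S.μ < ⊤) {K : Set (Fin n → ℂ)} (hK : IsCompact K)
    (hKV : K ⊆ S.V) : ∫⁻ q in {q : Pt n | q.1 ∈ K}, ‖f q‖ₑ ^ 2 ∂S.μ < ⊤ := by
  obtain ⟨c, hc, hcw⟩ := pshD_loc hw hK hKV
  have h1 : ∫⁻ q in {q : Pt n | q.1 ∈ K}, ‖f q‖ₑ ^ 2 ∂S.μ ≤
      ∫⁻ q in {q : Pt n | q.1 ∈ K}, (ENNReal.ofReal c)⁻¹ * (‖f q‖ₑ ^ 2 * w q) ∂S.μ := by
    refine lintegral_mono_ae ?_
    filter_upwards [ae_restrict_of_ae (ae_mem_M (S := S)),
      ae_restrict_mem (hdc_meas_fst hK)] with q hq1 hq2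
    have h2 := hcw q hq1 hq2
    calc ‖f q‖ₑ ^ 2 = (ENNReal.ofReal c)⁻¹ * (‖f q‖ₑ ^ 2 * ENNReal.ofReal c) := by
          rw [mul_comm (‖f q‖ₑ ^ 2), ← mul_assoc, ENNReal.inv_mul_cancel
            (ENNReal.ofReal_pos.2 hc).ne' ENNReal.ofReal_ne_top, one_mul]
      _ ≤ _ := by gcongr
  refine h1.trans_lt ?_
  rw [lintegral_const_mul' _ _ (ENNReal.inv_ne_top.2 (ENNReal.ofReal_pos.2 hc).ne')]
  exact ENNReal.mul_lt_top (lt_top_iff_ne_top.2
    (ENNReal.inv_ne_top.2 (ENNReal.ofReal_pos.2 hc).ne'))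
    ((setLIntegral_le_lintegral _ _).trans_lt hf)

/-- Continuous functions which agree a.e. agree. -/
theorem eqM_of_ae {F G : Pt n → ℂ} (hF : S.CD 0 F) (hG : S.CD 0 G)
    (h : ∀ᵐ q ∂S.μ, F q = G q) {q : Pt n} (hq : q ∈ S.M) : F q = G q := by
  obtain ⟨s, W, hs, z, hz, rfl⟩ := exists_section' hq
  by_contra hne
  have c1 : ContinuousAt (fun z => F (z, s z)) z :=
    (hF W s hs).continuousOn.continuousAt (hs.isOpen.mem_nhds hz)
  have c2 : ContinuousAt (fun z => G (z, s z)) z :=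
    (hG W s hs).continuousOn.continuousAt (hs.isOpen.mem_nhds hz)
  obtain ⟨y, h1, h2⟩ := ((frequently_section hs h hz).and_eventually
    ((c1.ne_iff_eventually_ne c2).1 hne)).exists
  exact h2 h1

end Vale.Agent.P299.H98
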