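import Vale.Agent.P299.H465.Hor
import Vale.Agent.P299.H98.Pencil.Wt

set_option linter.all false

/-! P299, package A-PENCIL: exactness of the pencil complex. -/

open MeasureTheory Filter Topology
open scoped ENNReal NNReal ComplexConjugate

namespace Vale.Agent.P299.H98

open Vale.Agent.P300.L2 Vale.Agent.P300.L2.Sheets Vale.Agent.P299.Pencil

variable {n N : ℕ} {S : Sheets n N} {p : (Fin n → ℂ) → ℝ} {C : ℝ} {k0 : ℕ}

/-- `|u|² + |v|²` as an extended number. -/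
noncomputable def WE (u v : Pt n → ℂ) (q : Pt n) : ℝ≥0∞ :=
  ENNReal.ofReal (‖u q‖ ^ 2 + ‖v q‖ ^ 2)

theorem WE_eq_nE (u v : Pt n → ℂ) (q : Pt n) : WE u v q = nE ![u, v] q := by
  rw [WE, nE, Fin.sum_univ_two]
  rfl

theorem WE_eq (u v : Pt n → ℂ) (q : Pt n) : WE u v q = ENNReal.ofReal (nW u v q) := rfl

theorem WE_ne_top (u v : Pt n → ℂ) (q : Pt n) : WE u v q ≠ ⊤ := ENNReal.ofReal_ne_top

theorem WE_ne_zero {u v : Pt n → ℂ} {q : Pt n} (h : u q ≠ 0) : WE u v q ≠ 0 := by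
  rw [WE, ne_eq, ENNReal.ofReal_eq_zero, not_le]
  positivity

theorem nW_pos {u v : Pt n → ℂ} {q : Pt n} (h : u q ≠ 0) : 0 < nW u v q := by
  rw [nW]
  positivity

theorem holo_pair {u v : Pt n → ℂ} (hu : S.Holo u) (hv : S.Holo v) :
    ∀ j, S.Holo ((![u, v] : Fin 2 → Pt n → ℂ) j) := by
  intro j
  fin_cases j
  · exact hu
  · exact hv

theorem pb_pair {u v : Pt n → ℂ} (hu : PB S p u) (hv : PB S p v) :
    ∀ j, PB S p ((![u, v] : Fin 2 → Pt n → ℂ) j) := by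
  intro j
  fin_cases j
  · exact hu
  · exact hv

theorem holo_one {u : Pt n → ℂ} (hu : S.Holo u) : ∀ j, S.Holo ((![u] : Fin 1 → Pt n → ℂ) j) := by
  intro j
  fin_cases j
  exact hu

theorem exh_nonneg (hp : Exh S.V p C k0) : ∀ z ∈ S.V, 0 ≤ p z := fun z hz =>
  (sq_nonneg _).trans (hp.norm_sq_le z hz)

/-- The density of the pencil weight. -/
theorem pshD_pencil (hp : ∀ z ∈ S.V, 0 ≤ p z) {w : Pt n → ℝ≥0∞} (hw : PshD S p w) {u v : Pt n → ℂ}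
    (hu : HP S p u) (hv : HP S p v) {c : ℝ} (hc : 0 ≤ c) :
    PshD S p (fun q => w q * WE u v q ^ (-c)) := by
  have := pshD_mulLog hp hw (holo_pair hu.holo hv.holo) (pb_pair hu.pb hv.pb) hc
  simp only [WE_eq_nE]
  exact this

theorem enorm_sq_eq (z : ℂ) : ‖z‖ₑ ^ 2 = ENNReal.ofReal (‖z‖ ^ 2) := by
  rw [← ofReal_norm, ENNReal.ofReal_pow (norm_nonneg _)]

/-! ### The weights -/

/-- The weights `Ψ m + δ log (ε_m + |W|²) + 5 log (ε_m + |u|²)`. -/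
noncomputable def PhiP (Ψ : ℕ → Pt n → ℝ) (δ : ℝ) (u v : Pt n → ℂ) : ℕ → Pt n → ℝ :=
  addLog (addLog Ψ δ ![u, v]) 5 ![u]

theorem PhiP_exp (Ψ : ℕ → Pt n → ℝ) (δ : ℝ) (u v : Pt n → ℂ) (m : ℕ) (q : Pt n) :
    Real.exp (-PhiP Ψ δ u v m q) = Real.exp (-Ψ m q) * (ep m + nW u v q) ^ (-δ) *
      ((ep m + ‖u q‖ ^ 2) ^ 5)⁻¹ := by
  have h1 : 0 < ep m + nW u v q := add_pos_of_pos_of_nonneg (ep_pos m) (nW_nonneg u v q)
  have h2 : 0 < ep m + ‖u q‖ ^ 2 := add_pos_of_pos_of_nonneg (ep_pos m) (by positivity)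
  have e1 : PhiP Ψ δ u v m q = Ψ m q + δ * Real.log (ep m + nW u v q) +
      5 * Real.log (ep m + ‖u q‖ ^ 2) := by
    rw [PhiP, addLog, addLog, Fin.sum_univ_two, Fin.sum_univ_one]
    rfl
  rw [e1, Real.rpow_def_of_pos h1]
  have e2 : ((ep m + ‖u q‖ ^ 2) ^ 5)⁻¹ = Real.exp (-(5 * Real.log (ep m + ‖u q‖ ^ 2))) := by
    rw [Real.exp_neg]
    congr 1
    have : (5 : ℝ) = ((5 : ℕ) : ℝ) := by norm_num
    rw [this, Real.exp_nat_mul, Real.exp_log h2]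
  rw [e2, ← Real.exp_add, ← Real.exp_add]
  congr 1
  ring

theorem PhiP_levi {Ψ : ℕ → Pt n → ℝ} (hΨ : PSeq S p Ψ) {δ : ℝ} (hδ : 0 ≤ δ) {u v : Pt n → ℂ}
    (hu : S.Holo u) (hv : S.Holo v) (m : ℕ) {q : Pt n} (hq : q ∈ S.M) (β : Fin n → ℂ) :
    δ * (‖∑ j, wr S u v j q * β j‖ ^ 2 / (ep m + nW u v q) ^ 2) ≤
      S.levi (PhiP Ψ δ u v m) β q := by
  rw [PhiP, addLog_levi (addLog_CD hΨ.cd (holo_pair hu hv) δ) (holo_one hu) 5 m hq β,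
    addLog_levi hΨ.cd (holo_pair hu hv) δ m hq β]
  have h1 := hΨ.levi m q hq β
  have h2 := levi_log_nonneg (holo_one hu) (ep_pos m) hq β
  have h3 := levi_log_two hu hv (ep_pos m) hq β
  have h4 : (fun q => Real.log (ep m + ∑ j : Fin 2, ‖(![u, v] : Fin 2 → Pt n → ℂ) j q‖ ^ 2)) =
      fun q => Real.log (ep m + nW u v q) := by
    funext q
    rw [Fin.sum_univ_two]
    rfl
  rw [h4]
  have h5 := mul_le_mul_of_nonneg_left h3 hδ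
  linarith

theorem PhiP_PSeq {Ψ : ℕ → Pt n → ℝ} (hΨ : PSeq S p Ψ) {δ : ℝ} (hδ : 0 ≤ δ) {u v : Pt n → ℂ}
    (hu : S.Holo u) (hv : S.Holo v) : PSeq S p (PhiP Ψ δ u v) :=
  (hΨ.addLog (holo_pair hu hv) hδ).addLog (holo_one hu) (by norm_num)

theorem PhiP_dens {Ψ : ℕ → Pt n → ℝ} (hΨ : PSeq S p Ψ) {δ : ℝ} (hδ : 0 ≤ δ) {u v : Pt n → ℂ}
    (hu : S.Holo u) (hv : S.Holo v) {q : Pt n} (hq : q ∈ S.M) :
    dens (PhiP Ψ δ u v) q = dens Ψ q * WE u v q ^ (-δ) * (‖u q‖ₑ ^ 2) ^ (-(5 : ℝ)) := by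
  rw [PhiP, dens_addLog (hΨ.addLog (holo_pair hu hv) hδ) _ (by norm_num) hq,
    dens_addLog hΨ _ hδ hq, Fin.sum_univ_two, Fin.sum_univ_one, enorm_sq_eq]
  rfl

/-! ### The function `a` -/

/-- The function `a` of Hörmander's theorem. -/
noncomputable def aP (F : Pt n → ℂ) (δ : ℝ) (u v : Pt n → ℂ) (m : ℕ) (q : Pt n) : ℝ :=
  ‖F q‖ ^ 2 * (‖u q‖ ^ 10 * (ep m + nW u v q) ^ 2 / (δ * nW u v q ^ 4))

theorem aP_nonneg (F : Pt n → ℂ) {δ : ℝ} (hδ : 0 < δ) (u v : Pt n → ℂ) (m : ℕ) (q : Pt n) :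
    0 ≤ aP F δ u v m q := by
  have := nW_nonneg u v q
  unfold aP
  positivity

theorem aP_meas {F : Pt n → ℂ} (hF : S.Holo F) (δ : ℝ) {u v : Pt n → ℂ} (hu : S.Holo u)
    (hv : S.Holo v) (m : ℕ) : AEMeasurable (aP F δ u v m) S.μ := by
  have h1 := (aestronglyMeasurable_of_CD (hF.CD 0)).norm.aemeasurable
  have h2 := (aestronglyMeasurable_of_CD (hu.CD 0)).norm.aemeasurable
  have h3 := (aestronglyMeasurable_of_CD (hv.CD 0)).norm.aemeasurable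
  have h4 : AEMeasurable (nW u v) S.μ := (h2.pow_const 2).add (h3.pow_const 2)
  unfold aP
  exact (h1.pow_const 2).mul (((h2.pow_const 10).mul ((h4.const_add _).pow_const 2)).div
    ((h4.pow_const 4).const_mul δ))

theorem norm_Db_sig {F u v : Pt n → ℂ} (hF : S.Holo F) (hu : S.Holo u) (hv : S.Holo v) {q : Pt n}
    (hq : q ∈ S.M) (β : Fin n → ℂ) :
    ‖∑ j, S.Db j (sig F u v) q * conj (β j)‖ ^ 2 =
      ‖F q‖ ^ 2 * (‖u q‖ ^ 10 * ‖∑ j, wr S u v j q * β j‖ ^ 2 / nW u v q ^ 4) := by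
  have h1 : ∑ j, S.Db j (sig F u v) q * conj (β j) =
      (-F q * u q ^ 5 * (((nW u v q ^ 2)⁻¹ : ℝ) : ℂ)) * conj (∑ j, wr S u v j q * β j) := by
    rw [map_sum, Finset.mul_sum]
    refine Finset.sum_congr rfl fun j _ => ?_
    rw [Db_sig hF hu hv hq, map_mul]
    ring
  rw [h1, norm_mul, norm_mul, norm_mul, norm_neg, norm_pow, Complex.norm_real, RCLike.norm_conj,
    Real.norm_eq_abs, abs_of_nonneg (inv_nonneg.2 (sq_nonneg _))]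
  have e : nW u v q ^ 4 = (nW u v q ^ 2) ^ 2 := by ring
  rw [e, div_eq_mul_inv, ← inv_pow]
  ring

theorem aP_levi {Ψ : ℕ → Pt n → ℝ} (hΨ : PSeq S p Ψ) {δ : ℝ} (hδ : 0 < δ) {F u v : Pt n → ℂ}
    (hF : S.Holo F) (hu : S.Holo u) (hv : S.Holo v) (m : ℕ) {q : Pt n} (hq : q ∈ S.M)
    (β : Fin n → ℂ) : ‖∑ j, S.Db j (sig F u v) q * conj (β j)‖ ^ 2 ≤
      aP F δ u v m q * S.levi (PhiP Ψ δ u v m) β q := by
  rw [norm_Db_sig hF hu hv hq]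
  have h1 := mul_le_mul_of_nonneg_left (PhiP_levi hΨ hδ.le hu hv m hq β)
    (aP_nonneg F hδ u v m q)
  refine le_trans (le_of_eq ?_) h1
  have h2 : 0 < ep m + nW u v q := add_pos_of_pos_of_nonneg (ep_pos m) (nW_nonneg u v q)
  rw [aP]
  by_cases h : nW u v q = 0
  · rw [h]
    simp
  · field_simp

/-! ### Elementary inequalities -/

theorem ineqA {x y e δ : ℝ} (hx : 0 ≤ x) (hy : 0 < y) (hxy : x ≤ y) (he : 0 < e) (hδ : 0 < δ) :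
    x ^ 5 * (e + y) ^ 2 / (δ * y ^ 4) * ((e + y) ^ (-δ) * ((e + x) ^ 5)⁻¹) ≤
      1 / δ * y ^ (-(δ + 2)) := by
  have h1 : (e + y) ^ (-δ) ≤ y ^ (-δ) := by
    rw [Real.rpow_neg (by positivity), Real.rpow_neg hy.le]
    gcongr
    linarith
  have h2 : y ^ (-(δ + 2)) = y ^ (-δ) * (y ^ 2)⁻¹ := by
    rw [neg_add, Real.rpow_add hy, Real.rpow_neg hy.le 2]
    norm_num
  have h3 : x * (e + y) ≤ y * (e + x) := by nlinarith
  have h4 : (x * (e + y)) ^ 2 ≤ (y * (e + x)) ^ 2 :=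
    pow_le_pow_left₀ (by positivity) h3 2
  have h5 : x ^ 3 ≤ (e + x) ^ 3 := pow_le_pow_left₀ hx (by linarith) 3
  have h6 : x ^ 5 * (e + y) ^ 2 ≤ y ^ 2 * (e + x) ^ 5 := by
    calc x ^ 5 * (e + y) ^ 2 = (x * (e + y)) ^ 2 * x ^ 3 := by ring
      _ ≤ (y * (e + x)) ^ 2 * (e + x) ^ 3 := by gcongr
      _ = _ := by ring
  have h7 : x ^ 5 * (e + y) ^ 2 / (δ * y ^ 4) * ((e + x) ^ 5)⁻¹ ≤ 1 / δ * (y ^ 2)⁻¹ := by
    have e1 : 0 < (e + x) ^ 5 := by positivity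
    rw [← div_eq_mul_inv, div_div, div_le_iff₀ (by positivity)]
    calc x ^ 5 * (e + y) ^ 2 ≤ y ^ 2 * (e + x) ^ 5 := h6
      _ = 1 / δ * (y ^ 2)⁻¹ * (δ * y ^ 4 * (e + x) ^ 5) := by field_simp
  calc x ^ 5 * (e + y) ^ 2 / (δ * y ^ 4) * ((e + y) ^ (-δ) * ((e + x) ^ 5)⁻¹)
      = (e + y) ^ (-δ) * (x ^ 5 * (e + y) ^ 2 / (δ * y ^ 4) * ((e + x) ^ 5)⁻¹) := by ring
    _ ≤ y ^ (-δ) * (1 / δ * (y ^ 2)⁻¹) := by gcongr
    _ = _ := by rw [h2]; ring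

theorem ineqB {x y e δ : ℝ} (hx : 0 ≤ x) (hy : 0 < y) (hxy : x ≤ y) (he : 0 < e) (hδ : 0 < δ) :
    x ^ 5 / y ^ 3 * ((e + y) ^ (-δ) * ((e + x) ^ 5)⁻¹) ≤ 1 / e * y ^ (-(δ + 2)) := by
  have h1 : (e + y) ^ (-δ) ≤ y ^ (-δ) := by
    rw [Real.rpow_neg (by positivity), Real.rpow_neg hy.le]
    gcongr
    linarith
  have h2 : y ^ (-(δ + 2)) = y ^ (-δ) * (y ^ 2)⁻¹ := by
    rw [neg_add, Real.rpow_add hy, Real.rpow_neg hy.le 2]
    norm_num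
  have h3 : x ^ 4 ≤ (e + x) ^ 4 := pow_le_pow_left₀ hx (by linarith) 4
  have h6 : e * x ^ 5 ≤ y * (e + x) ^ 5 := by
    calc e * x ^ 5 = x * (e * x ^ 4) := by ring
      _ ≤ y * ((e + x) * (e + x) ^ 4) := by
          gcongr
          linarith
      _ = _ := by ring
  have h7 : x ^ 5 / y ^ 3 * ((e + x) ^ 5)⁻¹ ≤ 1 / e * (y ^ 2)⁻¹ := by
    have e1 : 0 < (e + x) ^ 5 := by positivity
    rw [← div_eq_mul_inv, div_div, div_le_iff₀ (by positivity)]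
    have : x ^ 5 ≤ 1 / e * (y * (e + x) ^ 5) := by
      rw [one_div, ← div_eq_inv_mul, le_div_iff₀ he]
      linarith
    calc x ^ 5 ≤ 1 / e * (y * (e + x) ^ 5) := this
      _ = 1 / e * (y ^ 2)⁻¹ * (y ^ 3 * (e + x) ^ 5) := by field_simp
  calc x ^ 5 / y ^ 3 * ((e + y) ^ (-δ) * ((e + x) ^ 5)⁻¹)
      = (e + y) ^ (-δ) * (x ^ 5 / y ^ 3 * ((e + x) ^ 5)⁻¹) := by ring
    _ ≤ y ^ (-δ) * (1 / e * (y ^ 2)⁻¹) := by gcongr
    _ = _ := by rw [h2]; ring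

end Vale.Agent.P299.H98
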