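import Mathlib

set_option linter.all false

/-! P299, package A-PENCIL: positively homogeneous functions, smooth off the origin. -/

open Filter Topology
open scoped ContDiff ComplexConjugate

namespace Vale.Agent.P299.H98

universe u

section Homog

variable {E : Type u} [NormedAddCommGroup E] [NormedSpace ℝ E] [FiniteDimensional ℝ E]

theorem homog_bound {F : Type u} [NormedAddCommGroup F] [NormedSpace ℝ F] {d : ℕ} {f : E → F}
    (hf : ContinuousOn f {0}ᶜ) (h0 : f 0 = 0)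
    (hom : ∀ (t : ℝ) (x : E), 0 < t → f (t • x) = t ^ d • f x) :
    ∃ C : ℝ, 0 ≤ C ∧ ∀ x, ‖f x‖ ≤ C * ‖x‖ ^ d := by
  obtain ⟨C, hC⟩ := (isCompact_sphere (0 : E) 1).exists_bound_of_continuousOn
    (hf.mono fun x hx => by
      rw [mem_sphere_zero_iff_norm] at hx
      rw [Set.mem_compl_iff, Set.mem_singleton_iff]
      rintro rfl
      simp at hx)
  refine ⟨max C 0, le_max_right _ _, fun x => ?_⟩
  by_cases hx : x = 0
  · rw [hx, h0, norm_zero]; positivity
  · have hx' : 0 < ‖x‖ := norm_pos_iff.2 hx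
    have h1 : x = ‖x‖ • (‖x‖⁻¹ • x) := by
      rw [smul_smul, mul_inv_cancel₀ hx'.ne', one_smul]
    have h2 : ‖f (‖x‖⁻¹ • x)‖ ≤ C := hC _ (by
      rw [mem_sphere_zero_iff_norm, norm_smul, norm_inv, norm_norm, inv_mul_cancel₀ hx'.ne'])
    calc ‖f x‖ = ‖f (‖x‖ • (‖x‖⁻¹ • x))‖ := by rw [← h1]
      _ = ‖x‖ ^ d * ‖f (‖x‖⁻¹ • x)‖ := by
          rw [hom _ _ hx', norm_smul, norm_pow, norm_norm]
      _ ≤ ‖x‖ ^ d * max C 0 := by
          gcongr
          exact h2.trans (le_max_left _ _)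
      _ = _ := mul_comm _ _

theorem homog_hasFDerivAt {F : Type u} [NormedAddCommGroup F] [NormedSpace ℝ F] {d : ℕ}
    (hd : 2 ≤ d) {f : E → F} (hf : ContinuousOn f {0}ᶜ) (h0 : f 0 = 0)
    (hom : ∀ (t : ℝ) (x : E), 0 < t → f (t • x) = t ^ d • f x) :
    HasFDerivAt f (0 : E →L[ℝ] F) 0 := by
  obtain ⟨C, hC0, hC⟩ := homog_bound hf h0 hom
  rw [hasFDerivAt_iff_isLittleO_nhds_zero]
  simp only [zero_add, h0, sub_zero, ContinuousLinearMap.zero_apply]
  have h1 : f =O[𝓝 0] fun x => ‖x‖ ^ d :=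
    Asymptotics.IsBigO.of_bound C (Eventually.of_forall fun x => by
      rw [norm_pow, norm_norm]; exact hC x)
  exact h1.trans_isLittleO (Asymptotics.isLittleO_norm_pow_id (by omega))

theorem contDiff_of_homog {F : Type u} [NormedAddCommGroup F] [NormedSpace ℝ F] (m : ℕ) {d : ℕ}
    (hd : m + 1 ≤ d) {f : E → F} (hf : ContDiffOn ℝ ∞ f {0}ᶜ) (h0 : f 0 = 0)
    (hom : ∀ (t : ℝ) (x : E), 0 < t → f (t • x) = t ^ d • f x) : ContDiff ℝ m f := by
  induction m generalizing F d with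
  | zero =>
    rw [Nat.cast_zero, contDiff_zero, continuous_iff_continuousAt]
    intro x
    by_cases hx : x = 0
    · obtain ⟨C, hC0, hC⟩ := homog_bound hf.continuousOn h0 hom
      subst hx
      rw [ContinuousAt, h0]
      refine squeeze_zero_norm hC ?_
      have : Tendsto (fun x : E => C * ‖x‖ ^ d) (𝓝 0) (𝓝 (C * ‖(0 : E)‖ ^ d)) :=
        (Continuous.tendsto (by fun_prop) _)
      rwa [norm_zero, zero_pow (by omega), mul_zero] at this
    · exact hf.continuousOn.continuousAt (isOpen_compl_singleton.mem_nhds hx)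
  | succ m ih =>
    have hd2 : 2 ≤ d := by omega
    have hder0 := homog_hasFDerivAt hd2 hf.continuousOn h0 hom
    have hdiff : ∀ x : E, DifferentiableAt ℝ f x := by
      intro x
      by_cases hx : x = 0
      · rw [hx]; exact hder0.differentiableAt
      · exact (hf.contDiffAt (isOpen_compl_singleton.mem_nhds hx)).differentiableAt (by simp)
    rw [Nat.cast_add, Nat.cast_one, contDiff_succ_iff_fderiv]
    refine ⟨fun x => hdiff x, by simp, ?_⟩
    refine ih (d := d - 1) (by omega) ?_ hder0.fderiv ?_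
    · exact hf.fderiv_of_isOpen isOpen_compl_singleton (by simp)
    · intro t x ht
      have h1 : HasFDerivAt (fun x => f (t • x)) (t • fderiv ℝ f (t • x)) x := by
        have := (hdiff (t • x)).hasFDerivAt.comp x ((hasFDerivAt_id x).const_smul t)
        have e : t • fderiv ℝ f (t • x) =
            (fderiv ℝ f (t • x)).comp (t • ContinuousLinearMap.id ℝ E) := by
          ext v
          simp
        rw [e]
        exact this
      have h2 : HasFDerivAt (fun x => f (t • x)) (t ^ d • fderiv ℝ f x) x := by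
        have := (hdiff x).hasFDerivAt.const_smul (t ^ d)
        refine this.congr_of_eventuallyEq (Eventually.of_forall fun y => ?_)
        exact hom t y ht
      have h3 := h1.unique h2
      have h4 : t ^ d = t * t ^ (d - 1) := by
        rw [← pow_succ']; congr 1; omega
      rw [h4, mul_smul] at h3
      exact (smul_right_injective _ ht.ne') h3

end Homog

/-- The basic homogeneous function `a⁴ b̄ / (|a|² + |b|²)`. -/
noncomputable def gHom (x : ℂ × ℂ) : ℂ :=
  x.1 ^ 4 * conj x.2 * (((‖x.1‖ ^ 2 + ‖x.2‖ ^ 2)⁻¹ : ℝ) : ℂ)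

theorem gHom_zero : gHom 0 = 0 := by simp [gHom]

theorem gHom_hom (t : ℝ) (x : ℂ × ℂ) (ht : 0 < t) : gHom (t • x) = t ^ 3 • gHom x := by
  unfold gHom
  have e1 : ‖(t • x).1‖ ^ 2 + ‖(t • x).2‖ ^ 2 = t ^ 2 * (‖x.1‖ ^ 2 + ‖x.2‖ ^ 2) := by
    simp only [Prod.smul_fst, Prod.smul_snd, norm_smul, Real.norm_eq_abs, abs_of_pos ht]
    ring
  rw [e1, mul_inv]
  simp only [Prod.smul_fst, Prod.smul_snd, Complex.real_smul, map_mul, Complex.conj_ofReal,
    mul_pow]
  push_cast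
  have : (t : ℂ) ≠ 0 := by exact_mod_cast ht.ne'
  field_simp

theorem gHom_contDiffOn : ContDiffOn ℝ ∞ gHom {0}ᶜ := by
  have h1 : ContDiff ℝ ∞ (fun x : ℂ × ℂ => x.1 ^ 4 * conj x.2) :=
    (contDiff_fst.pow 4).mul (Complex.conjCLE.contDiff.comp contDiff_snd)
  have h2 : ContDiffOn ℝ ∞ (fun x : ℂ × ℂ => ‖x.1‖ ^ 2 + ‖x.2‖ ^ 2) {0}ᶜ :=
    ((contDiff_fst.norm_sq ℝ).add (contDiff_snd.norm_sq ℝ)).contDiffOn
  have h3 : ContDiffOn ℝ ∞ (fun x : ℂ × ℂ => (‖x.1‖ ^ 2 + ‖x.2‖ ^ 2)⁻¹) {0}ᶜ := by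
    refine h2.inv fun x hx h => hx ?_
    rw [Set.mem_singleton_iff]
    have h5 : ‖x.1‖ ^ 2 = 0 ∧ ‖x.2‖ ^ 2 = 0 := by
      constructor <;> nlinarith [sq_nonneg ‖x.1‖, sq_nonneg ‖x.2‖]
    refine Prod.ext ?_ ?_
    · simpa using h5.1
    · simpa using h5.2
  exact h1.contDiffOn.mul (Complex.ofRealCLM.contDiff.comp_contDiffOn h3)

theorem gHom_contDiff : ContDiff ℝ 2 gHom := by
  have := contDiff_of_homog 2 (d := 3) le_rfl gHom_contDiffOn gHom_zero gHom_hom
  exact_mod_cast this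

theorem gHom_hasFDerivAt : HasFDerivAt gHom (0 : ℂ × ℂ →L[ℝ] ℂ) 0 :=
  homog_hasFDerivAt (d := 3) (by norm_num) gHom_contDiffOn.continuousOn gHom_zero gHom_hom

end Vale.Agent.P299.H98
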