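import Vale.Agent.P299.H98.Pencil.Rank

set_option linter.all false

/-! P299, package A-PENCIL: several pencils. -/

open MeasureTheory Filter Topology
open scoped ENNReal NNReal ComplexConjugate

namespace Vale.Agent.P299.H98

open Vale.Agent.P300.L2 Vale.Agent.P300.L2.Sheets Vale.Agent.P299.Pencil

variable {n N : ℕ} {S : Sheets n N} {p : (Fin n → ℂ) → ℝ} {C : ℝ} {k0 : ℕ}

theorem pshD_congr {w w' : Pt n → ℝ≥0∞} (hw : PshD S p w) (h : ∀ q ∈ S.M, w' q = w q) :
    PshD S p w' := by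
  obtain ⟨⟨Φ, h1, h2⟩, c, k, hc, h3⟩ := pshD_iff.1 hw
  exact pshD_iff.2 ⟨⟨Φ, h1, fun q hq => (h q hq).trans (h2 q hq)⟩, c, k, hc,
    fun q hq => by rw [h q hq]; exact h3 q hq⟩

theorem pshD_prod (hp0 : ∀ z ∈ S.V, 0 ≤ p z) {w : Pt n → ℝ≥0∞} (hw : PshD S p w) {ι : Type*}
    (s : Finset ι) {u v : ι → Pt n → ℂ} (hu : ∀ i ∈ s, HP S p (u i)) (hv : ∀ i ∈ s, HP S p (v i))
    {c : ι → ℝ} (hc : ∀ i ∈ s, 0 ≤ c i) :
    PshD S p (fun q => w q * ∏ i ∈ s, WE (u i) (v i) q ^ (-(c i))) := by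
  classical
  induction s using Finset.induction_on with
  | empty => simpa using hw
  | insert a s ha ih =>
    have h1 := ih (fun i hi => hu i (Finset.mem_insert_of_mem hi))
      (fun i hi => hv i (Finset.mem_insert_of_mem hi))
      (fun i hi => hc i (Finset.mem_insert_of_mem hi))
    refine pshD_congr (pshD_pencil hp0 h1 (hu a (Finset.mem_insert_self a s))
      (hv a (Finset.mem_insert_self a s)) (hc a (Finset.mem_insert_self a s))) fun q _ => ?_
    rw [Finset.prod_insert ha]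
    ring

/-- The density of several pencils. -/
noncomputable def mw {R : ℕ} (w : Pt n → ℝ≥0∞) (u v : Fin R → Pt n → ℂ) (d : ℝ)
    (x : Fin R → ℕ) (q : Pt n) : ℝ≥0∞ :=
  w q * ∏ i, WE (u i) (v i) q ^ (-(d + x i))

/-- The dimension is affine in every variable. -/
theorem multi_aff (hp : Exh S.V p C k0) {w : Pt n → ℝ≥0∞} (hw : PshD S p w) {R : ℕ}
    {u v : Fin R → Pt n → ℂ} (hu : ∀ i, HP S p (u i)) (hv : ∀ i, HP S p (v i))
    (hu0 : ∀ i, ∀ᵐ q ∂S.μ, u i q ≠ 0) {d : ℝ} (hd : 0 < d)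
    (hfin : ∀ x, FiniteDimensional ℂ (A2 S (mw w u v d x))) :
    MAff fun x => (Module.finrank ℂ (A2 S (mw w u v d x)) : ℝ) := by
  intro i x t
  have hp0 := exh_nonneg hp
  set w' : Pt n → ℝ≥0∞ := fun q => w q * ∏ l ∈ Finset.univ.erase i,
    WE (u l) (v l) q ^ (-(d + x l)) with hw'
  have hw'P : PshD S p w' := pshD_prod hp0 hw _ (fun l _ => hu l) (fun l _ => hv l)
    (fun l _ => by positivity)
  have e : ∀ (t : ℕ) (s : ℝ), s = d + t → mw w u v d (Function.update x i t) =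
      fun q => w' q * WE (u i) (v i) q ^ (-s) := by
    intro t s hs
    funext q
    rw [mw, ← Finset.mul_prod_erase _ _ (Finset.mem_univ i), Function.update_self, hw', hs]
    have e1 : ∏ l ∈ Finset.univ.erase i,
        WE (u l) (v l) q ^ (-(d + ((Function.update x i t l : ℕ) : ℝ))) =
        ∏ l ∈ Finset.univ.erase i, WE (u l) (v l) q ^ (-(d + x l)) := by
      refine Finset.prod_congr rfl fun l hl => ?_
      rw [Function.update_of_ne (Finset.ne_of_mem_erase hl)]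
    rw [e1]
    ring
  have e0 := e t (d + t) rfl
  have e1 := e (t + 1) (d + t + 1) (by push_cast; ring)
  have e2 := e (t + 2) (d + t + 2) (by push_cast; ring)
  have : FiniteDimensional ℂ (A2 S (fun q => w' q * WE (u i) (v i) q ^ (-(d + t + 1)))) := by
    rw [← e1]
    exact hfin _
  have key := finrank_pencil hp hw'P (hu i) (hv i) (hu0 i) (δ := d + t) (by positivity)
  rw [← e0, ← e1, ← e2] at key
  have key' : (Module.finrank ℂ (A2 S (mw w u v d (Function.update x i t))) : ℝ) +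
      Module.finrank ℂ (A2 S (mw w u v d (Function.update x i (t + 2)))) =
      2 * Module.finrank ℂ (A2 S (mw w u v d (Function.update x i (t + 1)))) := by
    exact_mod_cast key
  linarith

/-- **Several pencils**: the difference relation. -/
theorem multi_diff (hp : Exh S.V p C k0) {w : Pt n → ℝ≥0∞} (hw : PshD S p w) {r : ℕ}
    {u v : Fin (r + 1) → Pt n → ℂ} (hu : ∀ i, HP S p (u i)) (hv : ∀ i, HP S p (v i))
    (hu0 : ∀ i, ∀ᵐ q ∂S.μ, u i q ≠ 0) {d : ℝ} (hd : 0 < d)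
    (hfin : ∀ x, FiniteDimensional ℂ (A2 S (mw w u v d x))) {B : ℝ}
    (hB : ∀ x, (Module.finrank ℂ (A2 S (mw w u v d x)) : ℝ) ≤ B * (1 + ∑ i, (x i : ℝ)) ^ r)
    {f : ℕ → ℝ} (hf : ∀ x : Fin (r + 1) → ℕ, (∀ i, x i ≤ 1) →
      (Module.finrank ℂ (A2 S (mw w u v d x)) : ℝ) = f (∑ i, x i)) :
    ∑ k ∈ Finset.range (r + 2), (-1 : ℝ) ^ k * ((r + 1).choose k) * f k = 0 :=
  diff_eq_zero (multi_aff hp hw hu hv hu0 hd hfin) (C := B)
    (fun x => by rw [abs_of_nonneg (Nat.cast_nonneg _)]; exact hB x) hf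

end Vale.Agent.P299.H98
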