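import Vale.Agent.P299.H98.Pencil.Solve

set_option linter.all false

/-! P299, package A-PENCIL: exactness of `0 → V₀ → V₁² → V₂ → 0`, dimensions. -/

open MeasureTheory Filter Topology
open scoped ENNReal NNReal ComplexConjugate

namespace Vale.Agent.P299.H98

open Vale.Agent.P300.L2 Vale.Agent.P300.L2.Sheets Vale.Agent.P299.Pencil

variable {n N : ℕ} {S : Sheets n N} {p : (Fin n → ℂ) → ℝ} {C : ℝ} {k0 : ℕ}

theorem Holo.neg' {X : Pt n → ℂ} (hX : S.Holo X) : S.Holo (fun q => -X q) := fun W s hs =>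
  (hX W s hs).neg

theorem Holo.sub' {X Y : Pt n → ℂ} (hX : S.Holo X) (hY : S.Holo Y) :
    S.Holo (fun q => X q - Y q) := fun W s hs => (hX W s hs).sub (hY W s hs)

theorem Holo.pow' {X : Pt n → ℂ} (hX : S.Holo X) (k : ℕ) : S.Holo (fun q => X q ^ k) :=
  fun W s hs => (hX W s hs).pow k

theorem holoM {X : Pt n → ℂ} (hX : S.Holo X) : AEStronglyMeasurable X S.μ :=
  aestronglyMeasurable_of_CD (hX.CD 0)

theorem diffOn_div {f g : (Fin n → ℂ) → ℂ} {U : Set (Fin n → ℂ)} (hf : DifferentiableOn ℂ f U)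
    (hg : DifferentiableOn ℂ g U) (h : ∀ z ∈ U, g z ≠ 0) :
    DifferentiableOn ℂ (fun z => f z / g z) U := by
  simp only [div_eq_mul_inv]
  exact hf.mul (hg.inv h)

theorem lint_add_lt {f g : Pt n → ℝ≥0∞} (hf : AEMeasurable f S.μ) (h1 : ∫⁻ q, f q ∂S.μ < ⊤)
    (h2 : ∫⁻ q, g q ∂S.μ < ⊤) : ∫⁻ q, (f q + g q) ∂S.μ < ⊤ := by
  rw [lintegral_add_left' hf g]
  exact ENNReal.add_lt_top.2 ⟨h1, h2⟩

/-- The algebraic identity behind the exactness on the right. -/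
theorem pencil_id {a b f h : ℂ} (ha : a ≠ 0) :
    ‖-h / a ^ 4‖ ^ 2 + ‖(b * (-h / a ^ 4) - f) / a‖ ^ 2 =
      ‖f‖ ^ 2 / (‖a‖ ^ 2 + ‖b‖ ^ 2) +
      ‖h - -f * (a ^ 4 * conj b * (((‖a‖ ^ 2 + ‖b‖ ^ 2)⁻¹ : ℝ) : ℂ))‖ ^ 2 / ‖a‖ ^ 10 *
        (‖a‖ ^ 2 + ‖b‖ ^ 2) := by
  set W : ℝ := ‖a‖ ^ 2 + ‖b‖ ^ 2 with hW
  have hWpos : 0 < W := by rw [hW]; positivity
  have hWc : (W : ℂ) ≠ 0 := by exact_mod_cast hWpos.ne'
  have hac : (‖a‖ : ℂ) ≠ 0 := by exact_mod_cast (norm_pos_iff.2 ha).ne'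
  have hWe : (W : ℂ) = a * conj a + b * conj b := by
    rw [Complex.mul_conj', Complex.mul_conj', hW]
    push_cast
    rfl
  have h1 : ((‖-h / a ^ 4‖ ^ 2 + ‖(b * (-h / a ^ 4) - f) / a‖ ^ 2 : ℝ) : ℂ) =
      ((‖f‖ ^ 2 / W + ‖h - -f * (a ^ 4 * conj b * ((W⁻¹ : ℝ) : ℂ))‖ ^ 2 / ‖a‖ ^ 10 * W : ℝ) : ℂ) := by
    push_cast
    have e10 : (‖a‖ : ℂ) ^ 10 = (a * conj a) ^ 5 := by
      rw [Complex.mul_conj']
      ring
    rw [← Complex.mul_conj', ← Complex.mul_conj', ← Complex.mul_conj', ← Complex.mul_conj', e10]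
    simp only [map_div₀, map_neg, map_sub, map_mul, map_pow, Complex.conj_conj,
      map_inv₀, Complex.conj_ofReal]
    have hca : conj a ≠ 0 := by simpa using ha
    field_simp
    rw [hWe]
    ring
  exact_mod_cast h1

theorem rpow_shift {W : ℝ≥0∞} (h0 : W ≠ 0) (ht : W ≠ ⊤) (s : ℝ) : W ^ (-s) = W * W ^ (-(s + 1)) := by
  have : W ^ (-s) = W ^ ((1 : ℝ) + -(s + 1)) := by
    congr 1
    ring
  rw [this, ENNReal.rpow_add _ _ h0 ht, ENNReal.rpow_one]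

theorem rpow_shift' {W : ℝ≥0∞} (h0 : W ≠ 0) (ht : W ≠ ⊤) (s : ℝ) :
    W ^ (-(s + 1)) = W⁻¹ * W ^ (-s) := by
  rw [rpow_shift h0 ht s, ← mul_assoc, ENNReal.inv_mul_cancel h0 ht, one_mul]

/-- The sum of the two densities. -/
theorem pencil_enorm {u v F H : Pt n → ℂ} {q : Pt n} (hq : u q ≠ 0) (w : ℝ≥0∞) (δ : ℝ) :
    ‖-H q / u q ^ 4‖ₑ ^ 2 * (w * WE u v q ^ (-(δ + 1))) +
      ‖(v q * (-H q / u q ^ 4) - F q) / u q‖ₑ ^ 2 * (w * WE u v q ^ (-(δ + 1))) =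
      ‖F q‖ₑ ^ 2 * (w * WE u v q ^ (-(δ + 2))) +
      ‖H q - sig F u v q‖ₑ ^ 2 * (w * WE u v q ^ (-δ) * (‖u q‖ₑ ^ 2) ^ (-(5 : ℝ))) := by
  have hW0 := WE_ne_zero (v := v) hq
  have hWt := WE_ne_top u v q
  have hpos : 0 < ‖u q‖ ^ 2 + ‖v q‖ ^ 2 := by positivity
  have hup : 0 < ‖u q‖ ^ 2 := by positivity
  have h1 := pencil_id (a := u q) (b := v q) (f := F q) (h := H q) hq
  have h2 : sig F u v q = -F q * (u q ^ 4 * conj (v q) * (((‖u q‖ ^ 2 + ‖v q‖ ^ 2)⁻¹ : ℝ) : ℂ)) := rfl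
  rw [← h2] at h1
  have h3 := congrArg ENNReal.ofReal h1
  rw [ENNReal.ofReal_add (by positivity) (by positivity),
    ENNReal.ofReal_add (by positivity) (by positivity), ENNReal.ofReal_mul (by positivity),
    ENNReal.ofReal_div_of_pos hpos, ENNReal.ofReal_div_of_pos (by positivity),
    ← enorm_sq_eq, ← enorm_sq_eq, ← enorm_sq_eq, ← enorm_sq_eq] at h3
  have h4 : (‖u q‖ₑ ^ 2) ^ (-(5 : ℝ)) = (ENNReal.ofReal (‖u q‖ ^ 10))⁻¹ := by
    rw [ENNReal.rpow_neg, enorm_sq_eq]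
    congr 1
    have : (5 : ℝ) = ((5 : ℕ) : ℝ) := by norm_num
    rw [this, ENNReal.rpow_natCast, ← ENNReal.ofReal_pow (by positivity)]
    congr 1
    ring
  have h5 : WE u v q ^ (-(δ + 2)) = (WE u v q)⁻¹ * WE u v q ^ (-(δ + 1)) := by
    have := rpow_shift' hW0 hWt (δ + 1)
    rw [← this]
    congr 1
    ring
  rw [← add_mul, h3, h4, h5, rpow_shift hW0 hWt δ]
  show (‖F q‖ₑ ^ 2 / WE u v q + ‖H q - sig F u v q‖ₑ ^ 2 / ENNReal.ofReal (‖u q‖ ^ 10) *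
    WE u v q) * (w * WE u v q ^ (-(δ + 1))) = _
  rw [div_eq_mul_inv, div_eq_mul_inv]
  ring

theorem exact_right (hp : Exh S.V p C k0) {w : Pt n → ℝ≥0∞} (hw : PshD S p w)
    {u v : Pt n → ℂ} (hu : HP S p u) (hv : HP S p v) (hu0 : ∀ᵐ q ∂S.μ, u q ≠ 0) {δ : ℝ}
    (hδ : 0 < δ) {F : Pt n → ℂ} (hF : F ∈ A2 S (fun q => w q * WE u v q ^ (-(δ + 2)))) :
    ∃ F₁ ∈ A2 S (fun q => w q * WE u v q ^ (-(δ + 1))),
      ∃ F₂ ∈ A2 S (fun q => w q * WE u v q ^ (-(δ + 1))),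
        ∀ q ∈ S.M, F q = v q * F₁ q - u q * F₂ q := by
  have hp0 := exh_nonneg hp
  have hw2 := pshD_pencil hp0 hw hu hv (c := δ + 2) (by positivity)
  have hw1 := pshD_pencil hp0 hw hu hv (c := δ + 1) (by positivity)
  obtain ⟨hFh, -, hFi⟩ := (mem_A2' (pshD_ae hw2)).1 hF
  obtain ⟨H, hH, hHi⟩ := pencil_solve hp hw hu hv hδ hFh hFi
  set f1 : Pt n → ℂ := fun q => -H q / u q ^ 4 with hf1
  set f2 : Pt n → ℂ := fun q => (v q * (-H q / u q ^ 4) - F q) / u q with hf2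
  have hm1 : AEStronglyMeasurable f1 S.μ :=
    ((holoM hH).neg.aemeasurable.div ((holoM hu.holo).aemeasurable.pow_const 4)).aestronglyMeasurable
  have hm2 : AEStronglyMeasurable f2 S.μ :=
    ((((holoM hv.holo).aemeasurable.mul hm1.aemeasurable).sub (holoM hFh).aemeasurable).div
      (holoM hu.holo).aemeasurable).aestronglyMeasurable
  have hmw := (pshD_ae hw1)
  have hsum : ∫⁻ q, (‖f1 q‖ₑ ^ 2 * (w q * WE u v q ^ (-(δ + 1))) +
      ‖f2 q‖ₑ ^ 2 * (w q * WE u v q ^ (-(δ + 1)))) ∂S.μ < ⊤ := by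
    have e1 : ∫⁻ q, (‖f1 q‖ₑ ^ 2 * (w q * WE u v q ^ (-(δ + 1))) +
        ‖f2 q‖ₑ ^ 2 * (w q * WE u v q ^ (-(δ + 1)))) ∂S.μ =
        ∫⁻ q, (‖F q‖ₑ ^ 2 * (w q * WE u v q ^ (-(δ + 2))) +
          ‖H q - sig F u v q‖ₑ ^ 2 *
            (w q * WE u v q ^ (-δ) * (‖u q‖ₑ ^ 2) ^ (-(5 : ℝ)))) ∂S.μ := by
      refine lintegral_congr_ae ?_
      filter_upwards [hu0] with q hq
      exact pencil_enorm hq (w q) δ
    rw [e1]
    exact lint_add_lt (((holoM hFh).enorm.pow_const 2).mul (pshD_ae hw2)) hFi hHi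
  have hi1 : ∫⁻ q, ‖f1 q‖ₑ ^ 2 * (w q * WE u v q ^ (-(δ + 1))) ∂S.μ < ⊤ :=
    (lintegral_mono fun q => le_self_add).trans_lt hsum
  have hi2 : ∫⁻ q, ‖f2 q‖ₑ ^ 2 * (w q * WE u v q ^ (-(δ + 1))) ∂S.μ < ⊤ :=
    (lintegral_mono fun q => le_add_self).trans_lt hsum
  obtain ⟨F1, hF1, hF1e, hF10⟩ := ext_sheets hu.holo hu0 (f := f1) (fun W s hs => by
      refine diffOn_div ((Holo.neg' hH W s hs).mono Set.inter_subset_left)
        ((Holo.pow' hu.holo 4 W s hs).mono Set.inter_subset_left) ?_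
      intro z hz
      exact pow_ne_zero 4 hz.2) hm1 (fun K hK hKV => pshD_locL2 hw1 hi1 hK hKV)
  obtain ⟨F2, hF2, hF2e, hF20⟩ := ext_sheets hu.holo hu0 (f := f2) (fun W s hs => by
      refine diffOn_div ?_ ((hu.holo W s hs).mono Set.inter_subset_left) ?_
      · refine DifferentiableOn.sub (DifferentiableOn.mul
          ((hv.holo W s hs).mono Set.inter_subset_left) ?_)
          ((hFh W s hs).mono Set.inter_subset_left)
        refine diffOn_div ((Holo.neg' hH W s hs).mono Set.inter_subset_left)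
          ((Holo.pow' hu.holo 4 W s hs).mono Set.inter_subset_left) ?_
        intro z hz
        exact pow_ne_zero 4 hz.2
      · intro z hz
        exact hz.2) hm2 (fun K hK hKV => pshD_locL2 hw1 hi2 hK hKV)
  have hae1 : ∀ᵐ q ∂S.μ, F1 q = f1 q := by
    filter_upwards [hu0, ae_mem_M (S := S)] with q hq hqM using hF1e q hqM hq
  have hae2 : ∀ᵐ q ∂S.μ, F2 q = f2 q := by
    filter_upwards [hu0, ae_mem_M (S := S)] with q hq hqM using hF2e q hqM hq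
  refine ⟨F1, (mem_A2' hmw).2 ⟨hF1, hF10, ?_⟩, F2, (mem_A2' hmw).2 ⟨hF2, hF20, ?_⟩, ?_⟩
  · refine lt_of_eq_of_lt (lintegral_congr_ae ?_) hi1
    filter_upwards [hae1] with q hq
    rw [hq]
  · refine lt_of_eq_of_lt (lintegral_congr_ae ?_) hi2
    filter_upwards [hae2] with q hq
    rw [hq]
  · intro q hq
    refine eqM_of_ae (hFh.CD 0) (Holo.CD (Holo.sub' (hv.holo.mul hF1) (hu.holo.mul hF2)) 0) ?_ hq
    filter_upwards [hae1, hae2, hu0] with q h1 h2 h3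
    rw [h1, h2, hf2]
    simp only [hf1]
    field_simp
    ring

theorem enorm_sq_le_WE_left (u v : Pt n → ℂ) (q : Pt n) : ‖u q‖ₑ ^ 2 ≤ WE u v q := by
  rw [enorm_sq_eq, WE]
  exact ENNReal.ofReal_le_ofReal (by linarith [sq_nonneg ‖v q‖])

theorem enorm_sq_le_WE_right (u v : Pt n → ℂ) (q : Pt n) : ‖v q‖ₑ ^ 2 ≤ WE u v q := by
  rw [enorm_sq_eq, WE]
  exact ENNReal.ofReal_le_ofReal (by linarith [sq_nonneg ‖u q‖])

/-- Multiplication by a function bounded by `|W|`. -/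
theorem mul_mem (hp0 : ∀ z ∈ S.V, 0 ≤ p z) {w : Pt n → ℝ≥0∞} (hw : PshD S p w)
    {u v : Pt n → ℂ} (hu : HP S p u) (hv : HP S p v) (hu0 : ∀ᵐ q ∂S.μ, u q ≠ 0) {s : ℝ}
    (hs : 0 ≤ s) {g : Pt n → ℂ} (hg : S.Holo g) (hgW : ∀ q, ‖g q‖ₑ ^ 2 ≤ WE u v q) {G : Pt n → ℂ}
    (hG : G ∈ A2 S (fun q => w q * WE u v q ^ (-s))) :
    (fun q => g q * G q) ∈ A2 S (fun q => w q * WE u v q ^ (-(s + 1))) := by
  have hw0 := pshD_ae (pshD_pencil hp0 hw hu hv hs)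
  have hw1 := pshD_ae (pshD_pencil hp0 hw hu hv (c := s + 1) (by positivity))
  rw [mem_A2' hw0] at hG
  rw [mem_A2' hw1]
  refine ⟨hg.mul hG.1, fun q hq => by rw [hG.2.1 q hq, mul_zero], ?_⟩
  refine lt_of_le_of_lt (lintegral_mono_ae ?_) hG.2.2
  filter_upwards [hu0] with q hq
  rw [enorm_mul, mul_pow, rpow_shift (WE_ne_zero hq) (WE_ne_top u v q) s]
  calc ‖g q‖ₑ ^ 2 * ‖G q‖ₑ ^ 2 * (w q * WE u v q ^ (-(s + 1)))
      ≤ WE u v q * ‖G q‖ₑ ^ 2 * (w q * WE u v q ^ (-(s + 1))) := by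
        gcongr
        exact hgW q
    _ = _ := by ring

theorem exact_mid (hp : Exh S.V p C k0) {w : Pt n → ℝ≥0∞} (hw : PshD S p w)
    {u v : Pt n → ℂ} (hu : HP S p u) (hv : HP S p v) (hu0 : ∀ᵐ q ∂S.μ, u q ≠ 0) {δ : ℝ}
    (hδ : 0 ≤ δ) {F₁ F₂ : Pt n → ℂ} (h₁ : F₁ ∈ A2 S (fun q => w q * WE u v q ^ (-(δ + 1))))
    (h₂ : F₂ ∈ A2 S (fun q => w q * WE u v q ^ (-(δ + 1))))
    (h : ∀ q ∈ S.M, v q * F₁ q = u q * F₂ q) :
    ∃ G ∈ A2 S (fun q => w q * WE u v q ^ (-δ)),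
      ∀ q ∈ S.M, F₁ q = u q * G q ∧ F₂ q = v q * G q := by
  have hp0 := exh_nonneg hp
  have hw0 := pshD_pencil hp0 hw hu hv hδ
  have hw1 := pshD_pencil hp0 hw hu hv (c := δ + 1) (by positivity)
  rw [mem_A2' (pshD_ae hw1)] at h₁ h₂
  set g : Pt n → ℂ := fun q => F₁ q / u q with hg
  have hgm : AEStronglyMeasurable g S.μ :=
    ((holoM h₁.1).aemeasurable.div (holoM hu.holo).aemeasurable).aestronglyMeasurable
  have hgi : ∫⁻ q, ‖g q‖ₑ ^ 2 * (w q * WE u v q ^ (-δ)) ∂S.μ < ⊤ := by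
    have e1 : ∫⁻ q, ‖g q‖ₑ ^ 2 * (w q * WE u v q ^ (-δ)) ∂S.μ =
        ∫⁻ q, (‖F₁ q‖ₑ ^ 2 * (w q * WE u v q ^ (-(δ + 1))) +
          ‖F₂ q‖ₑ ^ 2 * (w q * WE u v q ^ (-(δ + 1)))) ∂S.μ := by
      refine lintegral_congr_ae ?_
      filter_upwards [hu0, ae_mem_M (S := S)] with q hq hqM
      have a1 : F₁ q = u q * g q := by rw [hg]; field_simp
      have a2 : F₂ q = v q * g q := by
        have := h q hqM
        rw [a1] at this
        have h3 : u q * F₂ q = u q * (v q * g q) := by rw [← this]; ring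
        exact mul_left_cancel₀ hq h3
      have a3 : ‖u q‖ₑ ^ 2 + ‖v q‖ₑ ^ 2 = WE u v q := by
        rw [enorm_sq_eq, enorm_sq_eq, ← ENNReal.ofReal_add (by positivity) (by positivity), WE]
      rw [a1, a2, enorm_mul, enorm_mul, mul_pow, mul_pow,
        rpow_shift (WE_ne_zero hq) (WE_ne_top u v q) δ]
      calc ‖g q‖ₑ ^ 2 * (w q * (WE u v q * WE u v q ^ (-(δ + 1))))
          = (‖u q‖ₑ ^ 2 + ‖v q‖ₑ ^ 2) * (‖g q‖ₑ ^ 2 * (w q * WE u v q ^ (-(δ + 1)))) := by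
            rw [a3]; ring
        _ = _ := by ring
    rw [e1]
    exact lint_add_lt (((holoM h₁.1).enorm.pow_const 2).mul (pshD_ae hw1)) h₁.2.2 h₂.2.2
  obtain ⟨G, hG, hGe, hG0⟩ := ext_sheets hu.holo hu0 (f := g) (fun W s hs =>
      diffOn_div ((h₁.1 W s hs).mono Set.inter_subset_left)
        ((hu.holo W s hs).mono Set.inter_subset_left) fun z hz => hz.2) hgm
      (fun K hK hKV => pshD_locL2 hw0 hgi hK hKV)
  have hae : ∀ᵐ q ∂S.μ, G q = g q := by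
    filter_upwards [hu0, ae_mem_M (S := S)] with q hq hqM using hGe q hqM hq
  refine ⟨G, (mem_A2' (pshD_ae hw0)).2 ⟨hG, hG0, ?_⟩, fun q hq => ⟨?_, ?_⟩⟩
  · refine lt_of_eq_of_lt (lintegral_congr_ae ?_) hgi
    filter_upwards [hae] with q hq
    rw [hq]
  · refine eqM_of_ae (h₁.1.CD 0) ((hu.holo.mul hG).CD 0) ?_ hq
    filter_upwards [hae, hu0] with q h1 h2
    rw [h1, hg]
    field_simp
  · refine eqM_of_ae (h₂.1.CD 0) ((hv.holo.mul hG).CD 0) ?_ hq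
    filter_upwards [hae, hu0, ae_mem_M (S := S)] with q h1 h2 h3
    rw [h1]
    have a1 : F₁ q = u q * g q := by rw [hg]; field_simp
    have := h q h3
    rw [a1] at this
    have h3 : u q * F₂ q = u q * (v q * g q) := by rw [← this]; ring
    exact mul_left_cancel₀ h2 h3

end Vale.Agent.P299.H98
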