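import Vale.Agent.P299.H98.Pencil.Sig

set_option linter.all false

/-! P299, package A-PENCIL: adding `c log |F|²` to a singular weight. -/

open MeasureTheory Filter Topology
open scoped ENNReal NNReal ComplexConjugate

namespace Vale.Agent.P299.H98

open Vale.Agent.P300.L2 Vale.Agent.P300.L2.Sheets Vale.Agent.P299.Pencil

variable {n N : ℕ} {S : Sheets n N}

/-- The regularisation parameter. -/
noncomputable def ep (m : ℕ) : ℝ := 1 / ((m : ℝ) + 1)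

theorem ep_pos (m : ℕ) : 0 < ep m := by unfold ep; positivity

theorem ep_anti (m : ℕ) : ep (m + 1) ≤ ep m := by
  unfold ep
  push_cast
  gcongr
  linarith

theorem ep_antitone : Antitone ep := antitone_nat_of_succ_le ep_anti

theorem ep_tendsto : Tendsto ep atTop (𝓝 0) := tendsto_one_div_add_atTop_nhds_zero_nat

theorem iSup_mul_iSup_of_monotone {a b : ℕ → ℝ≥0∞} (ha : Monotone a) (hb : Monotone b) :
    ⨆ m, a m * b m = (⨆ m, a m) * ⨆ m, b m := by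
  refine le_antisymm (iSup_le fun m => mul_le_mul' (le_iSup a m) (le_iSup b m)) ?_
  rw [ENNReal.iSup_mul]
  refine iSup_le fun i => ?_
  rw [ENNReal.mul_iSup]
  refine iSup_le fun k => ?_
  exact (mul_le_mul' (ha (le_max_left i k)) (hb (le_max_right i k))).trans
    (le_iSup (fun m => a m * b m) (max i k))

theorem exp_log_eq {x c : ℝ} (hx : 0 < x) :
    ENNReal.ofReal (Real.exp (-(c * Real.log x))) = (ENNReal.ofReal x) ^ (-c) := by
  rw [ENNReal.ofReal_rpow_of_pos hx, Real.rpow_def_of_pos hx]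
  congr 2
  ring

theorem iSup_ep {x : ℝ} (hx : 0 ≤ x) {c : ℝ} (hc : 0 ≤ c) :
    ⨆ m, (ENNReal.ofReal (ep m + x)) ^ (-c) = (ENNReal.ofReal x) ^ (-c) := by
  have h1 : Monotone fun m => (ENNReal.ofReal (ep m + x)) ^ (-c) := by
    intro i k hik
    have h2 : ENNReal.ofReal (ep k + x) ≤ ENNReal.ofReal (ep i + x) :=
      ENNReal.ofReal_le_ofReal (by linarith [ep_antitone hik])
    simp only [ENNReal.rpow_neg]
    exact ENNReal.inv_le_inv.2 (ENNReal.rpow_le_rpow h2 hc)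
  refine iSup_eq_of_tendsto h1 ?_
  have h3 : Tendsto (fun m => ENNReal.ofReal (ep m + x)) atTop (𝓝 (ENNReal.ofReal x)) := by
    have : Tendsto (fun m => ep m + x) atTop (𝓝 (0 + x)) := ep_tendsto.add_const x
    rw [zero_add] at this
    exact (ENNReal.continuous_ofReal.tendsto _).comp this
  exact (ENNReal.continuous_rpow_const.tendsto _).comp h3

/-- The weights `Φ m + c log (ε_m + |F|²)`. -/
noncomputable def addLog {r : ℕ} (Φ : ℕ → Pt n → ℝ) (c : ℝ) (F : Fin r → Pt n → ℂ) (m : ℕ)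
    (q : Pt n) : ℝ := Φ m q + c * Real.log (ep m + ∑ j, ‖F j q‖ ^ 2)

theorem addLog_pos {r : ℕ} (F : Fin r → Pt n → ℂ) (m : ℕ) (q : Pt n) :
    0 < ep m + ∑ j, ‖F j q‖ ^ 2 := add_pos_of_pos_of_nonneg (ep_pos m) (by positivity)

theorem addLog_CD {Φ : ℕ → Pt n → ℝ} (hΦ : ∀ m, S.CD 2 (fun q => (Φ m q : ℂ))) {r : ℕ}
    {F : Fin r → Pt n → ℂ} (hF : ∀ j, S.Holo (F j)) (c : ℝ) (m : ℕ) :
    S.CD 2 (fun q => (addLog Φ c F m q : ℂ)) := by
  have h1 := (hΦ m).add ((CD.const (c : ℂ)).mul (CD.log_normSq_sum hF 2 (ep_pos m)))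
  refine h1.congr fun q _ => ?_
  rw [addLog]
  push_cast
  rfl

theorem addLog_levi {Φ : ℕ → Pt n → ℝ} (hΦ : ∀ m, S.CD 2 (fun q => (Φ m q : ℂ))) {r : ℕ}
    {F : Fin r → Pt n → ℂ} (hF : ∀ j, S.Holo (F j)) (c : ℝ) (m : ℕ) {q : Pt n} (hq : q ∈ S.M)
    (β : Fin n → ℂ) : S.levi (addLog Φ c F m) β q =
      S.levi (Φ m) β q + c * S.levi (fun q => Real.log (ep m + ∑ j, ‖F j q‖ ^ 2)) β q := by
  have h1 := levi_lin (hΦ m) (CD.log_normSq_sum hF 2 (ep_pos m)) 1 c hq β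
  have h2 : addLog Φ c F m = fun q => 1 * Φ m q + c * Real.log (ep m + ∑ j, ‖F j q‖ ^ 2) := by
    funext q
    rw [addLog, one_mul]
  rw [h2, h1, one_mul]

theorem levi_log_nonneg {r : ℕ} {F : Fin r → Pt n → ℂ} (hF : ∀ j, S.Holo (F j)) {s : ℝ}
    (hs : 0 < s) {q : Pt n} (hq : q ∈ S.M) (β : Fin n → ℂ) :
    0 ≤ S.levi (fun q => Real.log (s + ∑ j, ‖F j q‖ ^ 2)) β q := by
  refine le_trans ?_ (levi_log_ge hF hs hq β)
  have : 0 < s + ∑ j, ‖F j q‖ ^ 2 := levi_aux_pos hs q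
  positivity

theorem PSeq.addLog {p : (Fin n → ℂ) → ℝ} {Φ : ℕ → Pt n → ℝ} (h : PSeq S p Φ) {r : ℕ}
    {F : Fin r → Pt n → ℂ} (hF : ∀ j, S.Holo (F j)) {c : ℝ} (hc : 0 ≤ c) :
    PSeq S p (addLog Φ c F) where
  cd := addLog_CD h.cd hF c
  anti := by
    intro m q hq
    rw [H98.addLog, H98.addLog]
    refine add_le_add (h.anti m q hq) (mul_le_mul_of_nonneg_left ?_ hc)
    exact Real.log_le_log (addLog_pos F (m + 1) q) (by linarith [ep_anti m])
  low := by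
    intro m
    obtain ⟨c0, k, h0⟩ := h.low m
    refine ⟨c0 * Real.exp (-(c * Real.log (ep m))), k, fun q hq => ?_⟩
    have h1 : Real.log (ep m) ≤ Real.log (ep m + ∑ j, ‖F j q‖ ^ 2) :=
      Real.log_le_log (ep_pos m) (by
        have : 0 ≤ ∑ j, ‖F j q‖ ^ 2 := by positivity
        linarith)
    have h2 : Real.exp (-(c * Real.log (ep m + ∑ j, ‖F j q‖ ^ 2))) ≤
        Real.exp (-(c * Real.log (ep m))) :=
      Real.exp_le_exp.2 (neg_le_neg (mul_le_mul_of_nonneg_left h1 hc))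
    calc Real.exp (-H98.addLog Φ c F m q) =
          Real.exp (-Φ m q) * Real.exp (-(c * Real.log (ep m + ∑ j, ‖F j q‖ ^ 2))) := by
          rw [← Real.exp_add, H98.addLog]
          congr 1
          ring
      _ ≤ (c0 * (1 + p q.1) ^ k) * Real.exp (-(c * Real.log (ep m))) :=
          mul_le_mul (h0 q hq) h2 (Real.exp_pos _).le ((Real.exp_pos _).le.trans (h0 q hq))
      _ = c0 * Real.exp (-(c * Real.log (ep m))) * (1 + p q.1) ^ k := by ring
  levi := by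
    intro m q hq β
    rw [addLog_levi h.cd hF c m hq β]
    exact add_nonneg (h.levi m q hq β) (mul_nonneg hc (levi_log_nonneg hF (ep_pos m) hq β))

theorem exp_addLog {Φ : ℕ → Pt n → ℝ} {r : ℕ} {F : Fin r → Pt n → ℂ} {c : ℝ} (m : ℕ) (q : Pt n) :
    ENNReal.ofReal (Real.exp (-addLog Φ c F m q)) =
      ENNReal.ofReal (Real.exp (-Φ m q)) * (ENNReal.ofReal (ep m + ∑ j, ‖F j q‖ ^ 2)) ^ (-c) := by
  rw [← exp_log_eq (addLog_pos F m q), ← ENNReal.ofReal_mul (Real.exp_pos _).le, ← Real.exp_add,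
    addLog]
  congr 2
  ring

theorem PSeq.mono_exp {p : (Fin n → ℂ) → ℝ} {Φ : ℕ → Pt n → ℝ} (h : PSeq S p Φ) {q : Pt n}
    (hq : q ∈ S.M) : Monotone fun m => ENNReal.ofReal (Real.exp (-Φ m q)) :=
  monotone_nat_of_le_succ fun m => ENNReal.ofReal_le_ofReal
    (Real.exp_le_exp.2 (neg_le_neg (h.anti m q hq)))

theorem dens_addLog {p : (Fin n → ℂ) → ℝ} {Φ : ℕ → Pt n → ℝ} (h : PSeq S p Φ) {r : ℕ}
    (F : Fin r → Pt n → ℂ) {c : ℝ} (hc : 0 ≤ c) {q : Pt n} (hq : q ∈ S.M) :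
    dens (addLog Φ c F) q = dens Φ q * (ENNReal.ofReal (∑ j, ‖F j q‖ ^ 2)) ^ (-c) := by
  unfold dens
  simp only [exp_addLog]
  rw [iSup_mul_iSup_of_monotone (h.mono_exp hq), iSup_ep (by positivity) hc]
  intro i k hik
  have h2 : ENNReal.ofReal (ep k + ∑ j, ‖F j q‖ ^ 2) ≤ ENNReal.ofReal (ep i + ∑ j, ‖F j q‖ ^ 2) :=
    ENNReal.ofReal_le_ofReal (by linarith [ep_antitone hik])
  simp only [ENNReal.rpow_neg]
  exact ENNReal.inv_le_inv.2 (ENNReal.rpow_le_rpow h2 hc)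

end Vale.Agent.P299.H98
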