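import Vale.Agent.P299.H98.Pencil.Defs
import Vale.Agent.P299.H98.Pencil.Homog

set_option linter.all false

/-! P299, package A-PENCIL: the smooth solution of `v F₁ - u F₂ = F` and its `∂̄`. -/

open MeasureTheory Filter Topology
open scoped ENNReal NNReal ComplexConjugate

namespace Vale.Agent.P299.H98

open Vale.Agent.P300.L2 Vale.Agent.P300.L2.Sheets Vale.Agent.P299.Pencil

variable {n N : ℕ} {S : Sheets n N} {u v F : Pt n → ℂ} {q : Pt n} {j : Fin n}

/-- `|u|² + |v|²`. -/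
noncomputable def nW (u v : Pt n → ℂ) (q : Pt n) : ℝ := ‖u q‖ ^ 2 + ‖v q‖ ^ 2

theorem nW_nonneg (u v : Pt n → ℂ) (q : Pt n) : 0 ≤ nW u v q := by unfold nW; positivity

theorem nW_eq_zero (h : nW u v q = 0) : u q = 0 ∧ v q = 0 := by
  unfold nW at h
  have h1 : ‖u q‖ ^ 2 = 0 := by nlinarith [sq_nonneg ‖u q‖, sq_nonneg ‖v q‖]
  have h2 : ‖v q‖ ^ 2 = 0 := by nlinarith [sq_nonneg ‖u q‖, sq_nonneg ‖v q‖]
  exact ⟨by simpa using h1, by simpa using h2⟩

/-- The Wronskian `u ∂_j v - v ∂_j u`. -/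
noncomputable def wr (S : Sheets n N) (u v : Pt n → ℂ) (j : Fin n) (q : Pt n) : ℂ :=
  u q * S.D j v q - v q * S.D j u q

/-- `u⁴ v̄ / (|u|² + |v|²)`. -/
noncomputable def gW (u v : Pt n → ℂ) (q : Pt n) : ℂ := gHom (u q, v q)

theorem gW_CD (hu : S.Holo u) (hv : S.Holo v) : S.CD 2 (gW u v) := fun W s hs =>
  gHom_contDiff.comp_contDiffOn ((hu.CD 2 W s hs).prodMk (hv.CD 2 W s hs))

theorem gW_mul (u v : Pt n → ℂ) (q : Pt n) :
    gW u v q * (u q * conj (u q) + v q * conj (v q)) = u q ^ 4 * conj (v q) := by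
  have h1 : u q * conj (u q) + v q * conj (v q) = ((nW u v q : ℝ) : ℂ) := by
    rw [Complex.mul_conj', Complex.mul_conj', nW]
    push_cast
    rfl
  rw [h1]
  show u q ^ 4 * conj (v q) * (((nW u v q)⁻¹ : ℝ) : ℂ) * _ = _
  by_cases h : nW u v q = 0
  · rw [h, (nW_eq_zero h).1]
    simp
  · rw [mul_assoc, ← Complex.ofReal_mul, inv_mul_cancel₀ h, Complex.ofReal_one, mul_one]

/-- `∂̄` of `u⁴ v̄ / |W|²`. -/
theorem Db_gW (hu : S.Holo u) (hv : S.Holo v) (hq : q ∈ S.M) (j : Fin n) :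
    S.Db j (gW u v) q = u q ^ 5 * conj (wr S u v j q) * (((nW u v q ^ 2)⁻¹ : ℝ) : ℂ) := by
  by_cases h : nW u v q = 0
  · rw [h, (nW_eq_zero h).1]
    simp only [ne_eq, OfNat.ofNat_ne_zero, not_false_eq_true, zero_pow, zero_mul]
    obtain ⟨s, W, hs, z, hz, rfl⟩ := exists_section' hq
    rw [Db_apply hs hz]
    have hd : HasFDerivAt (fun z => gW u v (z, s z)) (0 : (Fin n → ℂ) →L[ℝ] ℂ) z := by
      have h1 : DifferentiableAt ℝ (fun z => (u (z, s z), v (z, s z))) z :=
        ((hu.CD 1).diffAt hs hz).prodMk ((hv.CD 1).diffAt hs hz)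
      have h2 : HasFDerivAt gHom (0 : ℂ × ℂ →L[ℝ] ℂ) (u (z, s z), v (z, s z)) := by
        rw [(nW_eq_zero h).1, (nW_eq_zero h).2]
        exact gHom_hasFDerivAt
      have h3 := h2.comp z h1.hasFDerivAt
      rwa [ContinuousLinearMap.zero_comp] at h3
    rw [dzb, hd.fderiv]
    simp
  · have hg := (gW_CD hu hv).mono (m' := 1) (by norm_num)
    have hN : S.CD 1 (fun q => u q * conj (u q) + v q * conj (v q)) :=
      ((hu.CD 1).mul (hu.CD 1).conj).add ((hv.CD 1).mul (hv.CD 1).conj)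
    have e1 := Db_mul (j := j) hg hN hq
    have e2 : S.Db j (fun q => gW u v q * (u q * conj (u q) + v q * conj (v q))) q =
        S.Db j (fun q => u q ^ 4 * conj (v q)) q :=
      Db_congr (fun q _ => gW_mul u v q) hq
    have hu4 : S.Holo (fun q => u q ^ 4) := by
      have := (hu.mul hu).mul (hu.mul hu)
      intro W s hs
      refine (this W s hs).congr fun z _ => ?_
      simp only
      ring
    have e3 : S.Db j (fun q => u q ^ 4 * conj (v q)) q = u q ^ 4 * conj (S.D j v q) := by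
      rw [Db_mul (hu4.CD 1) (hv.CD 1).conj hq, hu4.Db hq, Db_conj, zero_mul, zero_add]
    have e4 : S.Db j (fun q => u q * conj (u q) + v q * conj (v q)) q =
        u q * conj (S.D j u q) + v q * conj (S.D j v q) := by
      rw [Db_add ((hu.CD 1).mul (hu.CD 1).conj) ((hv.CD 1).mul (hv.CD 1).conj) hq,
        Db_mul (hu.CD 1) (hu.CD 1).conj hq, Db_mul (hv.CD 1) (hv.CD 1).conj hq, hu.Db hq, hv.Db hq,
        Db_conj, Db_conj, zero_mul, zero_mul, zero_add, zero_add]
    rw [e2, e3, e4] at e1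
    have h1 : u q * conj (u q) + v q * conj (v q) = ((nW u v q : ℝ) : ℂ) := by
      rw [Complex.mul_conj', Complex.mul_conj', nW]
      push_cast
      rfl
    have h2 := gW_mul u v q
    have h3 : ((nW u v q : ℝ) : ℂ) ≠ 0 := by exact_mod_cast h
    have h4 : S.Db j (gW u v) q * ((nW u v q : ℝ) : ℂ) ^ 2 = u q ^ 5 * conj (wr S u v j q) := by
      rw [← h1]
      have h5 : conj (wr S u v j q) = conj (u q) * conj (S.D j v q) - conj (v q) * conj (S.D j u q) := by
        rw [wr, map_sub, map_mul, map_mul]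
      rw [h5]
      linear_combination (-(u q * conj (u q) + v q * conj (v q))) * e1 +
        (-(u q * conj (S.D j u q) + v q * conj (S.D j v q))) * h2
    rw [← h4, mul_assoc, ← Complex.ofReal_pow, ← Complex.ofReal_mul,
      mul_inv_cancel₀ (pow_ne_zero 2 h), Complex.ofReal_one, mul_one]

/-- The smooth function `σ = - F u⁴ v̄ / |W|²`. -/
noncomputable def sig (F u v : Pt n → ℂ) (q : Pt n) : ℂ := -F q * gW u v q

theorem sig_CD (hF : S.Holo F) (hu : S.Holo u) (hv : S.Holo v) : S.CD 2 (sig F u v) := by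
  have h1 := ((CD.const (-1 : ℂ)).mul (hF.CD 2)).mul (gW_CD hu hv)
  refine h1.congr fun q _ => ?_
  rw [sig]
  ring

theorem Db_sig (hF : S.Holo F) (hu : S.Holo u) (hv : S.Holo v) (hq : q ∈ S.M) (j : Fin n) :
    S.Db j (sig F u v) q =
      -F q * (u q ^ 5 * conj (wr S u v j q) * (((nW u v q ^ 2)⁻¹ : ℝ) : ℂ)) := by
  have hF' : S.Holo (fun q => -F q) := by
    intro W s hs
    exact (hF W s hs).neg
  have h1 := Db_mul (j := j) (hF'.CD 1) ((gW_CD hu hv).mono (m' := 1) (by norm_num)) hq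
  rw [hF'.Db hq, zero_mul, zero_add, Db_gW hu hv hq] at h1
  exact h1

/-- The exact Levi form of `log (s + |F|²)` for two functions, estimated from below. -/
theorem levi_log_two (hu : S.Holo u) (hv : S.Holo v) {s : ℝ} (hs : 0 < s) (hq : q ∈ S.M)
    (β : Fin n → ℂ) :
    ‖∑ j, wr S u v j q * β j‖ ^ 2 / (s + nW u v q) ^ 2 ≤
      S.levi (fun q => Real.log (s + nW u v q)) β q := by
  have hF : ∀ j, S.Holo ((![u, v] : Fin 2 → Pt n → ℂ) j) := by
    intro j
    fin_cases j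
    · exact hu
    · exact hv
  have hsum : ∀ q, ∑ j : Fin 2, ‖(![u, v] : Fin 2 → Pt n → ℂ) j q‖ ^ 2 = nW u v q := by
    intro q
    rw [Fin.sum_univ_two]
    rfl
  set a : ℂ := ∑ k, S.D k u q * β k with ha
  set b : ℂ := ∑ k, S.D k v q * β k with hb
  set G : ℝ := s + nW u v q with hG
  have hGpos : 0 < G := by
    have := nW_nonneg u v q
    positivity
  have h2 : ∀ l k, S.D l (S.Db k (fun q => ((Real.log (s + nW u v q) : ℝ) : ℂ))) q * β l *
      conj (β k) = ((G⁻¹ : ℝ) : ℂ) * ((S.D l u q * β l) * conj (S.D k u q * β k) +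
        (S.D l v q * β l) * conj (S.D k v q * β k)) -
      ((G⁻¹ : ℝ) : ℂ) ^ 2 * (((S.D l u q * β l) * conj (u q) + (S.D l v q * β l) * conj (v q)) *
        (u q * conj (S.D k u q * β k) + v q * conj (S.D k v q * β k))) := by
    intro l k
    have h3 := levi_aux_D_Db_log hF hs hq l k
    simp only [hsum] at h3
    rw [h3, Fin.sum_univ_two, Fin.sum_univ_two, Fin.sum_univ_two]
    simp only [Matrix.cons_val_zero, Matrix.cons_val_one, map_mul]
    ring
  have h1 : ∑ l, ∑ k, S.D l (S.Db k (fun q => ((Real.log (s + nW u v q) : ℝ) : ℂ))) q * β l *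
      conj (β k) = ((G⁻¹ * (‖a‖ ^ 2 + ‖b‖ ^ 2) -
        (G⁻¹) ^ 2 * ‖a * conj (u q) + b * conj (v q)‖ ^ 2 : ℝ) : ℂ) := by
    simp_rw [h2, Finset.sum_sub_distrib, ← Finset.mul_sum]
    have e4 : ∀ f : Fin n → ℂ, ∑ l, ∑ k, (f l * β l) * conj (f k * β k) =
        (∑ l, f l * β l) * conj (∑ k, f k * β k) := by
      intro f
      rw [map_sum, Finset.sum_mul_sum]
    have e5 : ∑ l, ∑ k, ((S.D l u q * β l) * conj (S.D k u q * β k) +
        (S.D l v q * β l) * conj (S.D k v q * β k)) = a * conj a + b * conj b := by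
      simp_rw [Finset.sum_add_distrib]
      rw [e4, e4]
    have e6 : ∑ l, (((S.D l u q * β l) * conj (u q) + (S.D l v q * β l) * conj (v q)) *
        ∑ k, (u q * conj (S.D k u q * β k) + v q * conj (S.D k v q * β k))) =
        (a * conj (u q) + b * conj (v q)) * conj (a * conj (u q) + b * conj (v q)) := by
      rw [← Finset.sum_mul]
      congr 1
      · rw [Finset.sum_add_distrib, ← Finset.sum_mul, ← Finset.sum_mul]
      · rw [Finset.sum_add_distrib, ← Finset.mul_sum, ← Finset.mul_sum, map_add, map_mul, map_mul,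
          Complex.conj_conj, Complex.conj_conj, ha, hb, map_sum, map_sum]
        ring
    rw [e5, e6, Complex.mul_conj', Complex.mul_conj', Complex.mul_conj']
    push_cast
    ring
  have h3 : S.levi (fun q => Real.log (s + nW u v q)) β q =
      (∑ l, ∑ k, S.D l (S.Db k (fun q =>
        ((Real.log (s + nW u v q) : ℝ) : ℂ))) q * β l * conj (β k)).re := rfl
  rw [h3, h1, Complex.ofReal_re]
  -- Lagrange
  have hθ : ∑ j, wr S u v j q * β j = u q * b - v q * a := by
    rw [ha, hb, Finset.mul_sum, Finset.mul_sum, ← Finset.sum_sub_distrib]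
    refine Finset.sum_congr rfl fun j _ => ?_
    rw [wr]
    ring
  have hlag : ‖u q * b - v q * a‖ ^ 2 + ‖a * conj (u q) + b * conj (v q)‖ ^ 2 =
      nW u v q * (‖a‖ ^ 2 + ‖b‖ ^ 2) := by
    have : ((‖u q * b - v q * a‖ ^ 2 + ‖a * conj (u q) + b * conj (v q)‖ ^ 2 : ℝ) : ℂ) =
        ((nW u v q * (‖a‖ ^ 2 + ‖b‖ ^ 2) : ℝ) : ℂ) := by
      rw [nW]
      push_cast
      rw [← Complex.mul_conj', ← Complex.mul_conj', ← Complex.mul_conj', ← Complex.mul_conj',
        ← Complex.mul_conj', ← Complex.mul_conj']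
      simp only [map_sub, map_add, map_mul, Complex.conj_conj]
      ring
    exact_mod_cast this
  rw [hθ]
  have key : ‖u q * b - v q * a‖ ^ 2 / G ^ 2 =
      G⁻¹ * (‖a‖ ^ 2 + ‖b‖ ^ 2) - (G⁻¹) ^ 2 * ‖a * conj (u q) + b * conj (v q)‖ ^ 2 -
        s * (‖a‖ ^ 2 + ‖b‖ ^ 2) / G ^ 2 := by
    have h5 : ‖u q * b - v q * a‖ ^ 2 = nW u v q * (‖a‖ ^ 2 + ‖b‖ ^ 2) -
        ‖a * conj (u q) + b * conj (v q)‖ ^ 2 := by linarith
    rw [h5]
    have h6 : nW u v q = G - s := by rw [hG]; ring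
    rw [h6]
    field_simp
    ring
  rw [key]
  have : 0 ≤ s * (‖a‖ ^ 2 + ‖b‖ ^ 2) / G ^ 2 := by positivity
  linarith

end Vale.Agent.P299.H98
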