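import Vale.Agent.P299.H98.Pencil.Exact

set_option linter.all false

/-! P299, package A-PENCIL: the `∂̄`-problem of the pencil complex. -/

open MeasureTheory Filter Topology
open scoped ENNReal NNReal ComplexConjugate

namespace Vale.Agent.P299.H98

open Vale.Agent.P300.L2 Vale.Agent.P300.L2.Sheets Vale.Agent.P299.Pencil

variable {n N : ℕ} {S : Sheets n N} {p : (Fin n → ℂ) → ℝ} {C : ℝ} {k0 : ℕ}

theorem wr_sq_le (u v : Pt n → ℂ) (j : Fin n) (q : Pt n) :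
    ‖wr S u v j q‖ ^ 2 ≤ nW u v q * (‖S.D j u q‖ ^ 2 + ‖S.D j v q‖ ^ 2) := by
  have h1 : ‖wr S u v j q‖ ≤ ‖u q‖ * ‖S.D j v q‖ + ‖v q‖ * ‖S.D j u q‖ := by
    rw [wr]
    refine (norm_sub_le _ _).trans ?_
    rw [norm_mul, norm_mul]
  calc ‖wr S u v j q‖ ^ 2 ≤ (‖u q‖ * ‖S.D j v q‖ + ‖v q‖ * ‖S.D j u q‖) ^ 2 :=
        pow_le_pow_left₀ (norm_nonneg _) h1 2
    _ ≤ (‖u q‖ ^ 2 + ‖v q‖ ^ 2) * (‖S.D j u q‖ ^ 2 + ‖S.D j v q‖ ^ 2) := by
        nlinarith [sq_nonneg (‖u q‖ * ‖S.D j u q‖ - ‖v q‖ * ‖S.D j v q‖)]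

theorem norm_Db_sig_one {F u v : Pt n → ℂ} (hF : S.Holo F) (hu : S.Holo u) (hv : S.Holo v)
    {q : Pt n} (hq : q ∈ S.M) (j : Fin n) :
    ‖S.Db j (sig F u v) q‖ ^ 2 =
      ‖F q‖ ^ 2 * (‖u q‖ ^ 10 * ‖wr S u v j q‖ ^ 2 / nW u v q ^ 4) := by
  have h1 := norm_Db_sig hF hu hv hq (Pi.single j 1)
  rw [Finset.sum_eq_single j, Finset.sum_eq_single j] at h1
  · simpa using h1
  · intro b _ hb
    simp [Pi.single_eq_of_ne hb]
  · simp
  · intro b _ hb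
    simp [Pi.single_eq_of_ne hb]
  · simp

theorem rpow_WE {u v : Pt n → ℂ} {q : Pt n} (h : 0 < nW u v q) (t : ℝ) :
    ENNReal.ofReal (nW u v q ^ t) = WE u v q ^ t := by
  rw [WE_eq, ENNReal.ofReal_rpow_of_pos h]

/-- The `∂̄`-problem. -/
theorem pencil_solve (hp : Exh S.V p C k0) {w : Pt n → ℝ≥0∞} (hw : PshD S p w)
    {u v : Pt n → ℂ} (hu : HP S p u) (hv : HP S p v) {δ : ℝ} (hδ : 0 < δ) {F : Pt n → ℂ}
    (hF : S.Holo F) (hFi : ∫⁻ q, ‖F q‖ₑ ^ 2 * (w q * WE u v q ^ (-(δ + 2))) ∂S.μ < ⊤) :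
    ∃ H : Pt n → ℂ, S.Holo H ∧
      ∫⁻ q, ‖H q - sig F u v q‖ₑ ^ 2 *
        (w q * WE u v q ^ (-δ) * (‖u q‖ₑ ^ 2) ^ (-(5 : ℝ))) ∂S.μ < ⊤ := by
  obtain ⟨⟨Ψ, hΨ, hwΨ⟩, -⟩ := pshD_iff.1 hw
  set I : ℝ≥0∞ := ∫⁻ q, ‖F q‖ₑ ^ 2 * (w q * WE u v q ^ (-(δ + 2))) ∂S.μ with hI
  have hPhi := PhiP_PSeq hΨ hδ.le hu.holo hv.holo
  -- a pointwise estimate
  have hpt : ∀ (m : ℕ) (c X : ℝ) (q : Pt n), 0 ≤ c → q ∈ S.M → 0 < nW u v q →
      X * ((ep m + nW u v q) ^ (-δ) * ((ep m + ‖u q‖ ^ 2) ^ 5)⁻¹) ≤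
        c * nW u v q ^ (-(δ + 2)) →
      ENNReal.ofReal (‖F q‖ ^ 2 * X * Real.exp (-PhiP Ψ δ u v m q)) ≤
        ENNReal.ofReal c * (‖F q‖ₑ ^ 2 * (w q * WE u v q ^ (-(δ + 2)))) := by
    intro m c X q hc hq hpos hX
    have e1 : ‖F q‖ ^ 2 * X * Real.exp (-PhiP Ψ δ u v m q) =
        (‖F q‖ ^ 2 * Real.exp (-Ψ m q)) *
          (X * ((ep m + nW u v q) ^ (-δ) * ((ep m + ‖u q‖ ^ 2) ^ 5)⁻¹)) := by
      rw [PhiP_exp]
      ring
    have e2 : ‖F q‖ ^ 2 * X * Real.exp (-PhiP Ψ δ u v m q) ≤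
        (‖F q‖ ^ 2 * Real.exp (-Ψ m q)) * (c * nW u v q ^ (-(δ + 2))) := by
      rw [e1]
      exact mul_le_mul_of_nonneg_left hX (by positivity)
    refine (ENNReal.ofReal_le_ofReal e2).trans ?_
    rw [ENNReal.ofReal_mul (by positivity), ENNReal.ofReal_mul (by positivity),
      ENNReal.ofReal_mul hc, rpow_WE hpos, enorm_sq_eq]
    have h3 : ENNReal.ofReal (Real.exp (-Ψ m q)) ≤ w q := by
      rw [hwΨ q hq]
      exact le_dens Ψ m q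
    calc ENNReal.ofReal (‖F q‖ ^ 2) * ENNReal.ofReal (Real.exp (-Ψ m q)) *
          (ENNReal.ofReal c * WE u v q ^ (-(δ + 2)))
        = ENNReal.ofReal c * (ENNReal.ofReal (‖F q‖ ^ 2) *
          (ENNReal.ofReal (Real.exp (-Ψ m q)) * WE u v q ^ (-(δ + 2)))) := by ring
      _ ≤ _ := by gcongr
  -- the derivatives are integrable
  have hFin : ∀ m j, Vale.Agent.P299.H465.Fin2 S p (PhiP Ψ δ u v m) (S.Db j (sig F u v)) := by
    intro m j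
    obtain ⟨c1, k1, h1⟩ := hu.dpb j
    obtain ⟨c2, k2, h2⟩ := hv.dpb j
    set B : ℝ := c1 ^ 2 + c2 ^ 2 with hB
    set K : ℕ := 2 * k1 + 2 * k2 with hK
    refine ⟨K, lt_of_le_of_lt (lintegral_mono_ae (g := fun q => ENNReal.ofReal (B * (1 / ep m)) *
      (‖F q‖ₑ ^ 2 * (w q * WE u v q ^ (-(δ + 2))))) ?_) ?_⟩
    · filter_upwards [ae_mem_M (S := S)] with q hq
      have hp0 : 1 ≤ 1 + p q.1 := by linarith [exh_nonneg hp q.1 hq.1]
      have hD : ‖S.D j u q‖ ^ 2 + ‖S.D j v q‖ ^ 2 ≤ B * (1 + p q.1) ^ K := by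
        have a1 : ‖S.D j u q‖ ^ 2 ≤ c1 ^ 2 * (1 + p q.1) ^ K := by
          calc ‖S.D j u q‖ ^ 2 ≤ (c1 * (1 + p q.1) ^ k1) ^ 2 :=
                pow_le_pow_left₀ (norm_nonneg _) (h1 q hq) 2
            _ = c1 ^ 2 * (1 + p q.1) ^ (2 * k1) := by ring
            _ ≤ c1 ^ 2 * (1 + p q.1) ^ K := by
                gcongr
                omega
        have a2 : ‖S.D j v q‖ ^ 2 ≤ c2 ^ 2 * (1 + p q.1) ^ K := by
          calc ‖S.D j v q‖ ^ 2 ≤ (c2 * (1 + p q.1) ^ k2) ^ 2 :=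
                pow_le_pow_left₀ (norm_nonneg _) (h2 q hq) 2
            _ = c2 ^ 2 * (1 + p q.1) ^ (2 * k2) := by ring
            _ ≤ c2 ^ 2 * (1 + p q.1) ^ K := by
                gcongr
                omega
        rw [hB, add_mul]
        exact add_le_add a1 a2
      rw [norm_Db_sig_one hF hu.holo hv.holo hq]
      by_cases h0 : nW u v q = 0
      · rw [h0]
        simp
      have hpos : 0 < nW u v q := lt_of_le_of_ne (nW_nonneg u v q) (Ne.symm h0)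
      have hR0 : 0 < (1 + p q.1) ^ K := by positivity
      have e3 : ‖F q‖ ^ 2 * (‖u q‖ ^ 10 * ‖wr S u v j q‖ ^ 2 / nW u v q ^ 4) *
          Real.exp (-PhiP Ψ δ u v m q) * ((1 + p q.1) ^ K)⁻¹ ≤
          ‖F q‖ ^ 2 * (B * ((‖u q‖ ^ 2) ^ 5 / nW u v q ^ 3)) *
            Real.exp (-PhiP Ψ δ u v m q) := by
        have e4 : ‖wr S u v j q‖ ^ 2 * ((1 + p q.1) ^ K)⁻¹ ≤ nW u v q * B := by
          rw [← div_eq_mul_inv, div_le_iff₀ hR0]
          calc ‖wr S u v j q‖ ^ 2 ≤ nW u v q * (‖S.D j u q‖ ^ 2 + ‖S.D j v q‖ ^ 2) :=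
                wr_sq_le u v j q
            _ ≤ nW u v q * (B * (1 + p q.1) ^ K) := by gcongr
            _ = _ := by ring
        calc ‖F q‖ ^ 2 * (‖u q‖ ^ 10 * ‖wr S u v j q‖ ^ 2 / nW u v q ^ 4) *
              Real.exp (-PhiP Ψ δ u v m q) * ((1 + p q.1) ^ K)⁻¹
            = ‖F q‖ ^ 2 * (‖u q‖ ^ 10 / nW u v q ^ 4 *
              (‖wr S u v j q‖ ^ 2 * ((1 + p q.1) ^ K)⁻¹)) * Real.exp (-PhiP Ψ δ u v m q) := by
              ring
          _ ≤ ‖F q‖ ^ 2 * (‖u q‖ ^ 10 / nW u v q ^ 4 * (nW u v q * B)) *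
              Real.exp (-PhiP Ψ δ u v m q) := by gcongr
          _ = _ := by
              congr 2
              field_simp
      refine (ENNReal.ofReal_le_ofReal e3).trans ?_
      refine hpt m (B * (1 / ep m)) _ q (by have := ep_pos m; positivity) hq hpos ?_
      have e5 := ineqB (x := ‖u q‖ ^ 2) (y := nW u v q) (e := ep m) (δ := δ) (by positivity) hpos
        (by rw [nW]; linarith [sq_nonneg ‖v q‖]) (ep_pos m) hδ
      calc B * ((‖u q‖ ^ 2) ^ 5 / nW u v q ^ 3) *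
            ((ep m + nW u v q) ^ (-δ) * ((ep m + ‖u q‖ ^ 2) ^ 5)⁻¹)
          = B * ((‖u q‖ ^ 2) ^ 5 / nW u v q ^ 3 *
            ((ep m + nW u v q) ^ (-δ) * ((ep m + ‖u q‖ ^ 2) ^ 5)⁻¹)) := by ring
        _ ≤ B * (1 / ep m * nW u v q ^ (-(δ + 2))) := by gcongr
        _ = _ := by ring
    · rw [lintegral_const_mul' _ _ ENNReal.ofReal_ne_top]
      exact ENNReal.mul_lt_top ENNReal.ofReal_lt_top hFi
  -- the estimate of `a`
  have hA : ∀ m, ∫⁻ q, ENNReal.ofReal (aP F δ u v m q * Real.exp (-PhiP Ψ δ u v m q)) ∂S.μ ≤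
      ENNReal.ofReal (1 / δ * I.toReal) := by
    intro m
    rw [ENNReal.ofReal_mul (by positivity), ENNReal.ofReal_toReal hFi.ne, hI,
      ← lintegral_const_mul' _ _ ENNReal.ofReal_ne_top]
    refine lintegral_mono_ae ?_
    filter_upwards [ae_mem_M (S := S)] with q hq
    by_cases h0 : nW u v q = 0
    · rw [aP, h0]
      simp
    have hpos : 0 < nW u v q := lt_of_le_of_ne (nW_nonneg u v q) (Ne.symm h0)
    have e5 := ineqA (x := ‖u q‖ ^ 2) (y := nW u v q) (e := ep m) (δ := δ) (by positivity) hpos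
      (by rw [nW]; linarith [sq_nonneg ‖v q‖]) (ep_pos m) hδ
    refine hpt m (1 / δ) _ q (by positivity) hq hpos ?_
    refine le_trans (le_of_eq ?_) e5
    rw [← pow_mul]
  obtain ⟨H, hH, hHi⟩ := Vale.Agent.P299.H465.holo_sing hp hPhi.cd hPhi.anti hPhi.levi
    (sig_CD hF hu.holo hv.holo) hFin (aP F δ u v) (aP_nonneg F hδ u v)
    (aP_meas hF δ hu.holo hv.holo) (fun m q hq β => aP_levi hΨ hδ hF hu.holo hv.holo m hq β)
    (by positivity) hA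
  refine ⟨H, hH, ?_⟩
  have hsm : AEMeasurable (fun q => ‖H q - sig F u v q‖ₑ ^ 2) S.μ :=
    ((aestronglyMeasurable_of_CD (hH.CD 0)).sub (aestronglyMeasurable_of_CD
      ((sig_CD hF hu.holo hv.holo).mono (Nat.zero_le 2)))).enorm.pow_const 2
  have h1 : ∫⁻ q, ‖H q - sig F u v q‖ₑ ^ 2 *
        (w q * WE u v q ^ (-δ) * (‖u q‖ₑ ^ 2) ^ (-(5 : ℝ))) ∂S.μ =
      ∫⁻ q, ⨆ m, ‖H q - sig F u v q‖ₑ ^ 2 *
        ENNReal.ofReal (Real.exp (-PhiP Ψ δ u v m q)) ∂S.μ := by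
    refine lintegral_congr_ae ?_
    filter_upwards [ae_mem_M (S := S)] with q hq
    rw [← ENNReal.mul_iSup]
    congr 1
    rw [hwΨ q hq]
    exact (PhiP_dens hΨ hδ.le hu.holo hv.holo hq).symm
  rw [h1, lintegral_iSup']
  · refine lt_of_le_of_lt (iSup_le fun m => ?_) (ENNReal.ofReal_lt_top
      (r := 2 * (1 / δ * I.toReal)))
    refine le_trans (le_of_eq ?_) (hHi m)
    refine lintegral_congr fun q => ?_
    rw [enorm_sq_eq, ← ENNReal.ofReal_mul (by positivity)]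
  · intro m
    exact hsm.mul ((Real.measurable_exp.comp_aemeasurable
      (aemeasurable_real ((hPhi.cd m).mono (Nat.zero_le 2))).neg).ennreal_ofReal)
  · filter_upwards [ae_mem_M (S := S)] with q hq
    intro i k hik
    exact mul_le_mul' le_rfl (hPhi.mono_exp hq hik)

end Vale.Agent.P299.H98
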